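import Vale.Agent.P091.T.Defs

/-!
# P091, T block: the labelled weight of a list and the statement T5 (b) (helper957, helper453)

`lab J p y l = p y * ∏ ρ_i (l_i - y)` : weight of the leaf `y` together with the values
`l_i = y + t_i` of the units of the list `J`.
-/

set_option autoImplicit false

open Finset
open Vale.Agent.P091.Spec
open Vale.Agent.P065.Ent

noncomputable section

namespace Vale.Agent.P091.T.H957

open Vale.Agent.P091.T

/-- weight of the leaf `y` with the values `l` -/
def lab {n b : ℕ} (J : List (Un n b)) (p : ℕ → ℝ) (y : ℕ)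
    (l : Fin J.length → ZMod (2 ^ (n + b))) : ℝ :=
  p y * ∏ i, (J.get i).ρ (l i - (y : ZMod (2 ^ (n + b))))

/-- **T5 (b)**: the drop of the entropy of the list between the levels `j` and `j + t` is at most
the divergence, given the values, of the digits of `y` between these levels. -/
def T5B : Prop := ∀ c : ℝ, 0 < c → ∃ D0 : ℝ,
  ∀ (D : ℝ) (n : ℕ) (p : ℕ → ℝ) (J : List (Un n (bb D))) (j a t : ℕ) (Z : Finset ℕ),
    D0 ≤ D → j + t ≤ n → a < 2 ^ j → Z ⊆ nd n j a → (∀ i, 0 ≤ p i) → 0 < ∑ i ∈ Z, p i →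
    J.length ≤ qm D → (∀ k ∈ J, k.Ok (ep c D) D Z) →
    (∑ i ∈ Z, p i) * (F J j - F J (j + t) - D / (ll D : ℝ) ^ 10) ≤
      ∑ y ∈ Z, ∑ l, lab J p y l * Real.log (2 ^ t *
        ((∑ y' ∈ Z.filter (fun y' => anc n (j + t) y' = anc n (j + t) y), lab J p y' l) /
          ∑ y' ∈ Z, lab J p y' l))

end Vale.Agent.P091.T.H957
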