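import Vale.Agent.P091.T.H957.PX
import Vale.Agent.P091.T.H453.T5b

/-!
# P091, heart, row BELL: the exit inequality (X), unconditional (helper957, T5 (b) by helper453)
-/

set_option autoImplicit false

namespace Vale.Agent.P091.T.H957

/-- **(X)** -/
theorem p_X_uncond : H17.P_X := p_X H453.t5b

end Vale.Agent.P091.T.H957
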