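import Vale.Agent.P091.T.H17.Bell2

/-!
# P091, row BELL: the potential at the root (helper957)
-/

set_option autoImplicit false

open Real

namespace Vale.Agent.P091.T.H957

open Vale.Agent.P091.T.H17 (Psi)

/-- `m log₂(1/m) ≤ 3`, `m log₂(1/m)² ≤ 9` -/
lemma mlog {m : ℝ} (hm : 0 < m) (hm1 : m ≤ 1) :
    0 ≤ -logb 2 m ∧ m * (-logb 2 m) ≤ 3 ∧ m * (-logb 2 m) ^ 2 ≤ 9 := by
  have hl2 : 0 < log 2 := log_pos (by norm_num)
  have hl2' : (1 / 2 : ℝ) ≤ log 2 := by have := Real.log_two_gt_d9; linarith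
  set t : ℝ := -logb 2 m with ht
  have ht0 : 0 ≤ t := by
    have := logb_nonpos (b := 2) (by norm_num) hm.le hm1
    linarith
  have hmt : m = exp (-(t * log 2)) := by
    have h1 : t * log 2 = - log m := by rw [ht]; unfold logb; field_simp
    rw [h1, neg_neg, exp_log hm]
  have h2 : m * exp (t * log 2) = 1 := by rw [hmt, ← exp_add]; simp
  have h3 : t * log 2 + 1 ≤ exp (t * log 2) := add_one_le_exp _
  have h4 : (t * log 2 / 2 + 1) ^ 2 ≤ exp (t * log 2) := by
    have h5 : t * log 2 / 2 + 1 ≤ exp (t * log 2 / 2) := add_one_le_exp _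
    have h6 : exp (t * log 2) = exp (t * log 2 / 2) ^ 2 := by
      rw [← exp_nat_mul]; congr 1; push_cast; ring
    rw [h6]
    exact pow_le_pow_left₀ (by positivity) h5 2
  refine ⟨ht0, ?_, ?_⟩
  · have h7 : m * (t * log 2 + 1) ≤ 1 := (mul_le_mul_of_nonneg_left h3 hm.le).trans h2.le
    have h8 : m * (t * (1 / 2)) ≤ m * (t * log 2) :=
      mul_le_mul_of_nonneg_left (mul_le_mul_of_nonneg_left hl2' ht0) hm.le
    nlinarith
  · have h7 : m * (t * log 2 / 2 + 1) ^ 2 ≤ 1 :=
      (mul_le_mul_of_nonneg_left h4 hm.le).trans h2.le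
    have hl2'' : (2 / 3 : ℝ) ≤ log 2 := by have := Real.log_two_gt_d9; linarith
    have h9 : t * (2 / 3) / 2 ≤ t * log 2 / 2 := by
      have := mul_le_mul_of_nonneg_left hl2'' ht0; linarith
    have h10 : (t * (2 / 3) / 2) ^ 2 ≤ (t * log 2 / 2 + 1) ^ 2 :=
      pow_le_pow_left₀ (by positivity) (by linarith) 2
    have h11 := mul_le_mul_of_nonneg_left h10 hm.le
    nlinarith

/-- **the potential at the root** -/
theorem root_bound {m l D X H : ℝ} (hm : 0 < m) (hm1 : m ≤ 1) (hl : 1 ≤ l) (hlD : l ≤ D)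
    (hH : H = l - logb 2 m) (_hX0 : 0 ≤ X) (hX : X ≤ 2 * D + H) :
    m * Psi (D / l) l X H 0 ≤ 100 * D := by
  obtain ⟨h0, h1, h2⟩ := mlog hm hm1
  set t : ℝ := -logb 2 m with ht
  have hH' : H = l + t := by rw [hH, ht]; ring
  have hl0 : 0 < l := by linarith
  have hD0 : 0 < D := by linarith
  have hHl : 0 ≤ H := by rw [hH']; linarith
  -- the two moments
  have e1 : m * H ≤ 4 * l := by
    rw [hH']
    have : m * l ≤ l := mul_le_of_le_one_left hl0.le hm1
    nlinarith
  have e2 : m * H ^ 2 ≤ 20 * l ^ 2 := by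
    rw [hH']
    have h3 : m * l ^ 2 ≤ l ^ 2 := mul_le_of_le_one_left (by positivity) hm1
    have h4 : m * (l + t) ^ 2 = m * l ^ 2 + 2 * l * (m * t) + m * t ^ 2 := by ring
    rw [h4]
    have h5 : 2 * l * (m * t) ≤ 2 * l * 3 := mul_le_mul_of_nonneg_left h1 (by positivity)
    have h6 : l ≤ l ^ 2 := by nlinarith
    nlinarith
  have e3 : m * (1 + H / l) ≤ 5 := by
    have h3 : m * (H / l) ≤ 4 := by
      rw [← mul_div_assoc, div_le_iff₀ hl0]; exact e1
    have h4 : m * (1 + H / l) = m + m * (H / l) := by ring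
    rw [h4]; linarith
  have e4 : m * (H * (1 + H / l)) ≤ 24 * l := by
    have h3 : m * (H ^ 2 / l) ≤ 20 * l := by
      rw [← mul_div_assoc, div_le_iff₀ hl0]; nlinarith
    have h4 : m * (H * (1 + H / l)) = m * H + m * (H ^ 2 / l) := by field_simp
    rw [h4]; linarith
  have e5 : m * (X * (1 + H / l)) ≤ 10 * D + 24 * l := by
    have h3 : X * (1 + H / l) ≤ (2 * D + H) * (1 + H / l) :=
      mul_le_mul_of_nonneg_right hX (by positivity)
    have h4 := mul_le_mul_of_nonneg_left h3 hm.le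
    have h5 : m * ((2 * D + H) * (1 + H / l)) = 2 * D * (m * (1 + H / l)) +
        m * (H * (1 + H / l)) := by ring
    have h6 : 2 * D * (m * (1 + H / l)) ≤ 2 * D * 5 := mul_le_mul_of_nonneg_left e3 (by positivity)
    linarith
  have e6 : m * (D / l * (H + H ^ 2 / l)) ≤ 24 * D := by
    have h3 : m * (D / l * (H + H ^ 2 / l)) = D / l * (m * (H * (1 + H / l))) := by
      field_simp
    rw [h3]
    have h4 : D / l * (m * (H * (1 + H / l))) ≤ D / l * (24 * l) :=
      mul_le_mul_of_nonneg_left e4 (by positivity)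
    have h5 : D / l * (24 * l) = 24 * D := by field_simp
    linarith
  have e7 : m * Psi (D / l) l X H 0 = m * (X * (1 + H / l)) + m * (D / l * (H + H ^ 2 / l)) := by
    unfold Psi; ring
  rw [e7]
  linarith

end Vale.Agent.P091.T.H957
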