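import Vale.Agent.P065.H587.Ent2

/-!
# P091, heart of the T block: paths with exit times (helper957)

`Ω` a finite probability space, `L : Ω → Λ` a label, `d t : Ω → Bool` the digits of a path,
`X t` the node of level `t` (equivalent to the digits `d 0, …, d (t-1)`), `τ` an exit time.

`Dpath` is the divergence of the digits which are revealed before the exit:
`Dpath = E_l ∑_v P(Y_v | l) D(digit | Y_v, l ‖ 1/2)`.

* `stop_le` : stopping earlier, at a time `r (a ω) ≤ τ ω` which depends on a label `a` only,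
  costs at most `H(a | L)`;
* `drop` : the DROP inequality.
-/

set_option autoImplicit false

open Finset Real

noncomputable section

namespace Vale.Agent.P091.T.H957

open Vale.Agent.P065.Ent

variable {Ω : Type*} [Fintype Ω] {μ : Ω → ℝ} {α β Λ ρ : Type*}

/-- equality of probabilities from equality of fibres -/
lemma Pr_fib (X : Ω → α) (Y : Ω → β) (ω : Ω) (h : ∀ ω', X ω' = X ω ↔ Y ω' = Y ω) :
    Pr μ X (X ω) = Pr μ Y (Y ω) := by
  classical
  unfold Pr
  refine sum_congr rfl fun ω' _ => ?_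
  by_cases h1 : X ω' = X ω
  · rw [if_pos h1, if_pos ((h ω').mp h1)]
  · rw [if_neg h1, if_neg fun h2 => h1 ((h ω').mpr h2)]

/-- monotonicity of probabilities from inclusion of fibres -/
lemma Pr_fib_le (hμ : IsProb μ) (X : Ω → α) (Y : Ω → β) (ω : Ω)
    (h : ∀ ω', X ω' = X ω → Y ω' = Y ω) : Pr μ X (X ω) ≤ Pr μ Y (Y ω) := by
  classical
  unfold Pr
  refine sum_le_sum fun ω' _ => ?_
  by_cases h1 : X ω' = X ω
  · rw [if_pos h1, if_pos (h ω' h1)]
  · rw [if_neg h1]; split_ifs
    · exact hμ.nonneg ω'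
    · exact le_rfl

open Classical in
/-- **two children**: the divergence of one binary digit, restricted to an event which is
determined by the conditioning variable, is nonnegative. -/
lemma two_children (hμ : IsProb μ) (W : Ω → Bool) (Z : Ω → β) (G : β → Prop) :
    0 ≤ ∑ ω, if G (Z ω) then μ ω * log (2 * (Pr μ (fun ω => (W ω, Z ω)) (W ω, Z ω) /
      Pr μ Z (Z ω))) else 0 := by
  -- pointwise `log x ≥ 1 - 1/x`
  have h1 : ∀ ω, (if G (Z ω) then μ ω - μ ω * (Pr μ Z (Z ω) /
      (2 * Pr μ (fun ω => (W ω, Z ω)) (W ω, Z ω))) else 0) ≤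
      if G (Z ω) then μ ω * log (2 * (Pr μ (fun ω => (W ω, Z ω)) (W ω, Z ω) /
      Pr μ Z (Z ω))) else 0 := by
    intro ω
    split_ifs with hG
    · rcases (hμ.nonneg ω).eq_or_lt with h0 | h0
      · rw [← h0]; simp
      · have p1 := Pr_pos hμ (fun ω => (W ω, Z ω)) h0
        have p2 := Pr_pos hμ Z h0
        have h3 := one_sub_inv_le_log_of_pos
          (show 0 < 2 * (Pr μ (fun ω => (W ω, Z ω)) (W ω, Z ω) / Pr μ Z (Z ω)) by positivity)
        have h4 : (2 * (Pr μ (fun ω => (W ω, Z ω)) (W ω, Z ω) / Pr μ Z (Z ω)))⁻¹ =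
            Pr μ Z (Z ω) / (2 * Pr μ (fun ω => (W ω, Z ω)) (W ω, Z ω)) := by
          field_simp
        rw [h4] at h3
        have := mul_le_mul_of_nonneg_left h3 h0.le
        linarith
    · exact le_rfl
  refine le_trans ?_ (sum_le_sum fun ω _ => h1 ω)
  have h2 : ∀ ω, (if G (Z ω) then μ ω - μ ω * (Pr μ Z (Z ω) /
      (2 * Pr μ (fun ω => (W ω, Z ω)) (W ω, Z ω))) else 0) =
      (μ ω * if G (Z ω) then 1 else 0) - μ ω * (if G (Z ω) then (Pr μ Z (Z ω) /
      (2 * Pr μ (fun ω => (W ω, Z ω)) (W ω, Z ω))) else 0) := by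
    intro ω; split_ifs <;> ring
  rw [sum_congr rfl fun ω _ => h2 ω, sum_sub_distrib]
  have h3 := sum_fiber μ Z (fun z => if G z then (1 : ℝ) else 0)
  have h4 := sum_fiber μ (fun ω => (W ω, Z ω)) (fun p => if G p.2 then (Pr μ Z p.2 /
      (2 * Pr μ (fun ω => (W ω, Z ω)) p)) else 0)
  have h3' : ∑ ω, (μ ω * if G (Z ω) then (1 : ℝ) else 0) =
      ∑ z ∈ univ.image Z, Pr μ Z z * (if G z then (1 : ℝ) else 0) := h3
  have h4' : ∑ ω, μ ω * (if G (Z ω) then (Pr μ Z (Z ω) /
      (2 * Pr μ (fun ω => (W ω, Z ω)) (W ω, Z ω))) else 0) =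
      ∑ p ∈ univ.image (fun ω => (W ω, Z ω)), Pr μ (fun ω => (W ω, Z ω)) p *
        (if G p.2 then (Pr μ Z p.2 / (2 * Pr μ (fun ω => (W ω, Z ω)) p)) else 0) := h4
  rw [h3', h4', sub_nonneg]
  have h5 : ∀ p ∈ univ.image (fun ω => (W ω, Z ω)), Pr μ (fun ω => (W ω, Z ω)) p *
        (if G p.2 then (Pr μ Z p.2 / (2 * Pr μ (fun ω => (W ω, Z ω)) p)) else 0) ≤
        Pr μ Z p.2 * (if G p.2 then 1 else 0) / 2 := by
    intro p _
    split_ifs
    · rcases (Pr_nonneg hμ (fun ω => (W ω, Z ω)) p).eq_or_lt with h0 | h0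
      · rw [← h0]
        have := Pr_nonneg hμ Z p.2
        simp only [zero_mul]; positivity
      · apply le_of_eq; field_simp
    · simp
  refine (sum_le_sum h5).trans ?_
  have h6 : univ.image (fun ω => (W ω, Z ω)) ⊆ (univ : Finset Bool) ×ˢ univ.image Z := by
    intro p hp
    obtain ⟨ω, -, rfl⟩ := mem_image.mp hp
    exact mem_product.mpr ⟨mem_univ _, mem_image_of_mem Z (mem_univ ω)⟩
  refine (sum_le_sum_of_subset_of_nonneg h6 fun p _ _ => ?_).trans ?_
  · have := Pr_nonneg hμ Z p.2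
    split_ifs <;> simp <;> positivity
  · rw [sum_product]
    simp only [Fintype.sum_bool]
    rw [← sum_add_distrib]
    exact sum_le_sum fun z _ => by linarith

/-- the history at time `t`: the exit time and the exit node if the exit was before `t`,
the node of level `t` otherwise, and the label -/
def hst (L : Ω → Λ) (X : ℕ → Ω → ρ) (τ : Ω → ℕ) (t : ℕ) (ω : Ω) : ℕ × ρ × Λ :=
  (min t (τ ω), X (min t (τ ω)) ω, L ω)

/-- the history at time `t` with the decision at time `t` -/
def hst' (L : Ω → Λ) (X : ℕ → Ω → ρ) (τ : Ω → ℕ) (t : ℕ) (ω : Ω) : (ℕ × ρ × Λ) × Bool :=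
  (hst L X τ t ω, decide (t < τ ω))

open Classical in
/-- divergence of the digits revealed before the exit -/
def Dpath (μ : Ω → ℝ) (L : Ω → Λ) (X : ℕ → Ω → ρ) (τ : Ω → ℕ) (n : ℕ) : ℝ :=
  ∑ t ∈ range n, ∑ ω, if t < τ ω then μ ω *
    log (2 * (Pr μ (fun ω => (X (t + 1) ω, L ω, decide (t < τ ω)))
        (X (t + 1) ω, L ω, decide (t < τ ω)) /
      Pr μ (fun ω => (X t ω, L ω, decide (t < τ ω))) (X t ω, L ω, decide (t < τ ω)))) else 0

section main

variable (L : Ω → Λ) (X : ℕ → Ω → ρ) (d : ℕ → Ω → Bool) (τ : Ω → ℕ)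

/-- the same divergence, with an additional label `a` -/
def Tt (μ : Ω → ℝ) (L : Ω → Λ) (X : ℕ → Ω → ρ) (τ : Ω → ℕ) (a : Ω → ℕ) (t : ℕ) (ω : Ω) : ℝ :=
  log (2 * (Pr μ (fun ω => (X (t + 1) ω, (L ω, a ω), decide (t < τ ω)))
        (X (t + 1) ω, (L ω, a ω), decide (t < τ ω)) /
      Pr μ (fun ω => (X t ω, (L ω, a ω), decide (t < τ ω)))
        (X t ω, (L ω, a ω), decide (t < τ ω))))

omit [Fintype Ω] in
lemma mono_of_step (hX1 : ∀ t, Det (X (t + 1)) (fun ω => (X t ω, d t ω))) {s t : ℕ} (h : s ≤ t) :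
    Det (X t) (X s) := by
  induction t, h using Nat.le_induction with
  | base => exact Det.refl _
  | succ t _ ih =>
    exact fun a b e => ih a b (Prod.mk.inj (hX1 t a b e)).1

/-- the additional label costs at most `H(a | L)` -/
theorem Dpath_label (hμ : IsProb μ) (hX0 : ∀ ω ω', X 0 ω = X 0 ω') (a : Ω → ℕ) (n : ℕ) :
    ∑ t ∈ range n, ∑ ω, (if t < τ ω then μ ω * Tt μ L X τ a t ω else 0) ≤
      Dpath μ L X τ n + Hc μ a L := by
  classical
  -- one step
  have step : ∀ t, ∑ ω, (if t < τ ω then μ ω * Tt μ L X τ a t ω else 0) =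
      (∑ ω, if t < τ ω then μ ω *
    log (2 * (Pr μ (fun ω => (X (t + 1) ω, L ω, decide (t < τ ω)))
        (X (t + 1) ω, L ω, decide (t < τ ω)) /
      Pr μ (fun ω => (X t ω, L ω, decide (t < τ ω))) (X t ω, L ω, decide (t < τ ω)))) else 0)
      + (Hc μ a (hst' L X τ t) - Hc μ a (hst L X τ (t + 1))) := by
    intro t
    rw [Hc_eq_sum hμ, Hc_eq_sum hμ, ← sum_sub_distrib, ← sum_add_distrib]
    refine sum_congr rfl fun ω _ => ?_
    by_cases ht : t < τ ω
    · rw [if_pos ht, if_pos ht]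
      have m1 : min t (τ ω) = t := min_eq_left ht.le
      have m2 : min (t + 1) (τ ω) = t + 1 := min_eq_left ht
      -- the four fibres
      have e1 : Pr μ (fun ω => (a ω, hst' L X τ t ω)) (a ω, hst' L X τ t ω) =
          Pr μ (fun ω => (X t ω, (L ω, a ω), decide (t < τ ω)))
            (X t ω, (L ω, a ω), decide (t < τ ω)) := by
        refine Pr_fib (fun ω => (a ω, hst' L X τ t ω))
          (fun ω => (X t ω, (L ω, a ω), decide (t < τ ω))) ω fun ω' => ?_
        simp only [hst', hst, Prod.mk.injEq, m1]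
        constructor
        · rintro ⟨h1, ⟨h2, h3, h4⟩, h5⟩
          have h6 : t < τ ω' := by
            have := h5; simp only [ht, decide_true, decide_eq_true_eq] at this; exact this
          rw [min_eq_left h6.le] at h3
          exact ⟨h3, ⟨h4, h1⟩, h5⟩
        · rintro ⟨h3, ⟨h4, h1⟩, h5⟩
          have h6 : t < τ ω' := by
            have := h5; simp only [ht, decide_true, decide_eq_true_eq] at this; exact this
          rw [min_eq_left h6.le]
          exact ⟨h1, ⟨rfl, h3, h4⟩, h5⟩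
      have e2 : Pr μ (hst' L X τ t) (hst' L X τ t ω) =
          Pr μ (fun ω => (X t ω, L ω, decide (t < τ ω)))
            (X t ω, L ω, decide (t < τ ω)) := by
        refine Pr_fib (hst' L X τ t)
          (fun ω => (X t ω, L ω, decide (t < τ ω))) ω fun ω' => ?_
        simp only [hst', hst, Prod.mk.injEq, m1]
        constructor
        · rintro ⟨⟨h2, h3, h4⟩, h5⟩
          have h6 : t < τ ω' := by
            have := h5; simp only [ht, decide_true, decide_eq_true_eq] at this; exact this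
          rw [min_eq_left h6.le] at h3
          exact ⟨h3, h4, h5⟩
        · rintro ⟨h3, h4, h5⟩
          have h6 : t < τ ω' := by
            have := h5; simp only [ht, decide_true, decide_eq_true_eq] at this; exact this
          rw [min_eq_left h6.le]
          exact ⟨⟨rfl, h3, h4⟩, h5⟩
      have e3 : Pr μ (fun ω => (a ω, hst L X τ (t + 1) ω)) (a ω, hst L X τ (t + 1) ω) =
          Pr μ (fun ω => (X (t + 1) ω, (L ω, a ω), decide (t < τ ω)))
            (X (t + 1) ω, (L ω, a ω), decide (t < τ ω)) := by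
        refine Pr_fib (fun ω => (a ω, hst L X τ (t + 1) ω))
          (fun ω => (X (t + 1) ω, (L ω, a ω), decide (t < τ ω))) ω fun ω' => ?_
        simp only [hst, Prod.mk.injEq, m2]
        constructor
        · rintro ⟨h1, h2, h3, h4⟩
          have h6 : t < τ ω' := by omega
          rw [h2] at h3
          exact ⟨h3, ⟨h4, h1⟩, by simp [ht, h6]⟩
        · rintro ⟨h3, ⟨h4, h1⟩, h5⟩
          have h6 : t < τ ω' := by
            have := h5; simp only [ht, decide_true, decide_eq_true_eq] at this; exact this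
          have m3 : min (t + 1) (τ ω') = t + 1 := min_eq_left h6
          rw [m3]
          exact ⟨h1, rfl, h3, h4⟩
      have e4 : Pr μ (hst L X τ (t + 1)) (hst L X τ (t + 1) ω) =
          Pr μ (fun ω => (X (t + 1) ω, L ω, decide (t < τ ω)))
            (X (t + 1) ω, L ω, decide (t < τ ω)) := by
        refine Pr_fib (hst L X τ (t + 1))
          (fun ω => (X (t + 1) ω, L ω, decide (t < τ ω))) ω fun ω' => ?_
        simp only [hst, Prod.mk.injEq, m2]
        constructor
        · rintro ⟨h2, h3, h4⟩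
          have h6 : t < τ ω' := by omega
          rw [h2] at h3
          exact ⟨h3, h4, by simp [ht, h6]⟩
        · rintro ⟨h3, h4, h5⟩
          have h6 : t < τ ω' := by
            have := h5; simp only [ht, decide_true, decide_eq_true_eq] at this; exact this
          have m3 : min (t + 1) (τ ω') = t + 1 := min_eq_left h6
          rw [m3]
          exact ⟨rfl, h3, h4⟩
      rcases (hμ.nonneg ω).eq_or_lt with h0 | h0
      · rw [← h0]; simp
      · rw [e1, e2, e3, e4]
        have p1 := Pr_pos hμ (fun ω => (X t ω, (L ω, a ω), decide (t < τ ω))) h0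
        have p2 := Pr_pos hμ (fun ω => (X t ω, L ω, decide (t < τ ω))) h0
        have p3 := Pr_pos hμ (fun ω => (X (t + 1) ω, (L ω, a ω), decide (t < τ ω))) h0
        have p4 := Pr_pos hμ (fun ω => (X (t + 1) ω, L ω, decide (t < τ ω))) h0
        unfold Tt
        rw [log_mul two_ne_zero (div_pos p3 p1).ne', log_mul two_ne_zero (div_pos p4 p2).ne',
          log_div p3.ne' p1.ne', log_div p4.ne' p2.ne', log_div p1.ne' p2.ne',
          log_div p3.ne' p4.ne']
        ring
    · rw [if_neg ht, if_neg ht]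
      have m1 : min t (τ ω) = τ ω := min_eq_right (by omega)
      have m2 : min (t + 1) (τ ω) = τ ω := min_eq_right (by omega)
      have e1 : Pr μ (fun ω => (a ω, hst' L X τ t ω)) (a ω, hst' L X τ t ω) =
          Pr μ (fun ω => (a ω, hst L X τ (t + 1) ω)) (a ω, hst L X τ (t + 1) ω) := by
        refine Pr_fib (fun ω => (a ω, hst' L X τ t ω))
          (fun ω => (a ω, hst L X τ (t + 1) ω)) ω fun ω' => ?_
        simp only [hst', hst, Prod.mk.injEq, m1, m2]
        constructor
        · rintro ⟨h1, ⟨h2, h3, h4⟩, h5⟩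
          have h6 : ¬ t < τ ω' := by
            have := h5; simp only [ht, decide_false, decide_eq_false_iff_not] at this; exact this
          have m3 : min (t + 1) (τ ω') = min t (τ ω') := by omega
          rw [m3]
          exact ⟨h1, h2, h3, h4⟩
        · rintro ⟨h1, h2, h3, h4⟩
          have h6 : ¬ t < τ ω' := by omega
          have m3 : min (t + 1) (τ ω') = min t (τ ω') := by omega
          rw [m3] at h2 h3
          exact ⟨h1, ⟨h2, h3, h4⟩, by simp [ht, h6]⟩
      have e2 : Pr μ (hst' L X τ t) (hst' L X τ t ω) =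
          Pr μ (hst L X τ (t + 1)) (hst L X τ (t + 1) ω) := by
        refine Pr_fib (hst' L X τ t) (hst L X τ (t + 1)) ω fun ω' => ?_
        simp only [hst', hst, Prod.mk.injEq, m1, m2]
        constructor
        · rintro ⟨⟨h2, h3, h4⟩, h5⟩
          have h6 : ¬ t < τ ω' := by
            have := h5; simp only [ht, decide_false, decide_eq_false_iff_not] at this; exact this
          have m3 : min (t + 1) (τ ω') = min t (τ ω') := by omega
          rw [m3]
          exact ⟨h2, h3, h4⟩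
        · rintro ⟨h2, h3, h4⟩
          have h6 : ¬ t < τ ω' := by omega
          have m3 : min (t + 1) (τ ω') = min t (τ ω') := by omega
          rw [m3] at h2 h3
          exact ⟨⟨h2, h3, h4⟩, by simp [ht, h6]⟩
      rw [e1, e2]; ring
  have tele : ∀ m, ∑ t ∈ range m, (Hc μ a (hst' L X τ t) - Hc μ a (hst L X τ (t + 1))) ≤
      Hc μ a (hst L X τ 0) - Hc μ a (hst L X τ m) := by
    intro m
    induction m with
    | zero => simp
    | succ m ih =>
      rw [sum_range_succ]
      have h1 : Hc μ a (hst' L X τ m) ≤ Hc μ a (hst L X τ m) :=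
        Hc_anti hμ a (fun ω ω' e => by
          unfold hst' at e; exact (Prod.mk.inj e).1)
      linarith
  rw [sum_congr rfl fun t _ => step t, sum_add_distrib]
  unfold Dpath
  have h1 := tele n
  have h2 : Hc μ a (hst L X τ 0) = Hc μ a L := by
    refine Hc_congr (Det.refl _) (Det.refl _) ?_ ?_
    · intro ω ω' e
      simp only [hst, Prod.mk.injEq] at e
      exact e.2.2
    · intro ω ω' e
      simp only [hst, Prod.mk.injEq, Nat.zero_min, true_and]
      exact ⟨hX0 ω ω', e⟩
  have h3 := Hc_nonneg hμ a (hst L X τ n)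
  linarith

/-- one level, extra label: the part of the population with `r (a ω) ≤ t < τ ω` contributes a
nonnegative amount -/
lemma level_nonneg (hμ : IsProb μ) (hX1 : ∀ t, Det (X (t + 1)) (fun ω => (X t ω, d t ω)))
    (hX2 : ∀ t, Det (fun ω => (X t ω, d t ω)) (X (t + 1))) (a : Ω → ℕ) (r : ℕ → ℕ) (t : ℕ) :
    ∑ ω, (if t < r (a ω) ∧ t < τ ω then μ ω * Tt μ L X τ a t ω else 0) ≤
      ∑ ω, (if t < τ ω then μ ω * Tt μ L X τ a t ω else 0) := by
  classical
  have h := two_children hμ (d t) (fun ω => (X t ω, (L ω, a ω), decide (t < τ ω)))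
    (fun z => z.2.2 = true ∧ ¬ t < r z.2.1.2)
  rw [← sub_nonneg, ← sum_sub_distrib]
  refine h.trans (le_of_eq (sum_congr rfl fun ω _ => ?_))
  have e1 : Pr μ (fun ω => (d t ω, (X t ω, (L ω, a ω), decide (t < τ ω))))
      (d t ω, (X t ω, (L ω, a ω), decide (t < τ ω))) =
      Pr μ (fun ω => (X (t + 1) ω, (L ω, a ω), decide (t < τ ω)))
        (X (t + 1) ω, (L ω, a ω), decide (t < τ ω)) := by
    refine Pr_fib (fun ω => (d t ω, (X t ω, (L ω, a ω), decide (t < τ ω))))
      (fun ω => (X (t + 1) ω, (L ω, a ω), decide (t < τ ω))) ω fun ω' => ?_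
    simp only [Prod.mk.injEq]
    constructor
    · rintro ⟨h1, h2, h3, h4⟩
      exact ⟨hX2 t ω' ω (by simp only [h1, h2]), h3, h4⟩
    · rintro ⟨h1, h3, h4⟩
      have := Prod.mk.inj (hX1 t ω' ω h1)
      exact ⟨this.2, this.1, h3, h4⟩
  by_cases ht : t < τ ω
  · by_cases hr : t < r (a ω)
    · simp [ht, hr]
    · simp only [ht, hr, decide_true, not_false_eq_true, and_self, if_true, false_and, if_false,
        sub_zero]
      unfold Tt
      simp only [ht, decide_true] at e1 ⊢
      rw [e1]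
  · simp [ht]

/-- **stopping earlier** at a time which depends only on a label `a` -/
theorem stop_le (hμ : IsProb μ) (hX0 : ∀ ω ω', X 0 ω = X 0 ω')
    (hX1 : ∀ t, Det (X (t + 1)) (fun ω => (X t ω, d t ω)))
    (hX2 : ∀ t, Det (fun ω => (X t ω, d t ω)) (X (t + 1))) (a : Ω → ℕ) (r : ℕ → ℕ)
    (hr : ∀ ω, r (a ω) ≤ τ ω) {n : ℕ} (hn : ∀ ω, τ ω ≤ n) :
    ∑ ω, μ ω * log (2 ^ (r (a ω)) *
      (Pr μ (fun ω' => (X (r (a ω)) ω', (L ω', a ω'))) (X (r (a ω)) ω, (L ω, a ω)) /
        Pr μ (fun ω' => (L ω', a ω')) (L ω, a ω))) ≤ Dpath μ L X τ n + Hc μ a L := by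
  classical
  refine le_trans ?_ (Dpath_label L X τ hμ hX0 a n)
  refine le_trans ?_ (sum_le_sum fun t _ => level_nonneg L X d τ hμ hX1 hX2 a r t)
  rw [sum_comm]
  refine le_of_eq (sum_congr rfl fun ω _ => ?_)
  rcases (hμ.nonneg ω).eq_or_lt with h0 | h0
  · rw [← h0]; simp
  -- the pointwise identity
  set Q : ℕ → ℝ := fun t => Pr μ (fun ω' => (X t ω', (L ω', a ω'))) (X t ω, (L ω, a ω)) with hQ
  have hQ0 : ∀ t, 0 < Q t := fun t => Pr_pos hμ (fun ω' => (X t ω', (L ω', a ω'))) h0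
  have e0 : Pr μ (fun ω' => (L ω', a ω')) (L ω, a ω) = Q 0 := by
    refine Pr_fib (fun ω' => (L ω', a ω')) (fun ω' => (X 0 ω', (L ω', a ω'))) ω fun ω' => ?_
    simp only [Prod.mk.injEq]
    exact ⟨fun h => ⟨hX0 ω' ω, h⟩, fun h => h.2⟩
  have e1 : ∀ t, t < r (a ω) → Tt μ L X τ a t ω = log (2 * (Q (t + 1) / Q t)) := by
    intro t ht
    have f : ∀ s, Pr μ (fun ω => (X s ω, (L ω, a ω), decide (t < τ ω)))
        (X s ω, (L ω, a ω), decide (t < τ ω)) = Q s := by
      intro s
      refine Pr_fib (fun ω => (X s ω, (L ω, a ω), decide (t < τ ω)))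
        (fun ω' => (X s ω', (L ω', a ω'))) ω fun ω' => ?_
      simp only [Prod.mk.injEq]
      constructor
      · rintro ⟨h1, ⟨h2, h3⟩, _⟩; exact ⟨h1, h2, h3⟩
      · rintro ⟨h1, h2, h3⟩
        refine ⟨h1, ⟨h2, h3⟩, ?_⟩
        have h4 := hr ω
        have h5 := hr ω'
        rw [h3] at h5
        have : t < τ ω := lt_of_lt_of_le ht h4
        have : t < τ ω' := lt_of_lt_of_le ht h5
        simp [*]
    unfold Tt
    rw [f, f]
  have e2 : ∀ m, log (2 ^ m * (Q m / Q 0)) = ∑ t ∈ range m, log (2 * (Q (t + 1) / Q t)) := by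
    intro m
    induction m with
    | zero => simp [(hQ0 0).ne']
    | succ m ih =>
      rw [sum_range_succ, ← ih, ← log_mul
        (mul_pos (by positivity) (div_pos (hQ0 m) (hQ0 0))).ne'
        (mul_pos two_pos (div_pos (hQ0 _) (hQ0 m))).ne']
      congr 1
      have := (hQ0 m).ne'
      have := (hQ0 0).ne'
      field_simp
      ring
  rw [e0, e2, mul_sum]
  -- compare the sums over `range (r (a ω))` and `range n`
  have h3 : ∀ t ∈ range n, (if t < r (a ω) ∧ t < τ ω then μ ω * Tt μ L X τ a t ω else 0) =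
      if t < r (a ω) then μ ω * log (2 * (Q (t + 1) / Q t)) else 0 := by
    intro t _
    by_cases ht : t < r (a ω)
    · have : t < τ ω := lt_of_lt_of_le ht (hr ω)
      rw [if_pos ⟨ht, this⟩, if_pos ht, e1 t ht]
    · rw [if_neg fun h => ht h.1, if_neg ht]
  rw [sum_congr rfl h3, ← sum_filter]
  refine sum_congr ?_ fun _ _ => rfl
  ext t
  simp only [mem_range, mem_filter]
  have := hr ω
  have := hn ω
  omega

/-- **DROP**: `φ` is a function of the level, `a ω ≤ φ (r (a ω))`, `φ (τ ω) ≤ a ω + 1`;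
the level lemma `hlev` is a statement about each of the sub-populations `a = c`. -/
theorem drop (hμ : IsProb μ) (hX0 : ∀ ω ω', X 0 ω = X 0 ω')
    (hX1 : ∀ t, Det (X (t + 1)) (fun ω => (X t ω, d t ω)))
    (hX2 : ∀ t, Det (fun ω => (X t ω, d t ω)) (X (t + 1))) (a : Ω → ℕ) (r : ℕ → ℕ)
    (hr : ∀ ω, r (a ω) ≤ τ ω) {n : ℕ} (hn : ∀ ω, τ ω ≤ n) (φ : ℕ → ℝ) (err : ℝ)
    (hφ : ∀ ω, φ (τ ω) ≤ a ω + 1) (hφ' : ∀ ω, (a ω : ℝ) ≤ φ (r (a ω)))
    (hlev : ∀ c ∈ univ.image a, Pr μ a c * (φ (r c) - err) ≤ ∑ ω, if a ω = c then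
      μ ω * log (2 ^ (r c) * (Pr μ (fun ω' => (X (r c) ω', (L ω', a ω')))
        (X (r c) ω, (L ω, a ω)) / Pr μ (fun ω' => (L ω', a ω')) (L ω, a ω))) else 0) :
    ∑ ω, μ ω * φ (τ ω) ≤ Dpath μ L X τ n + Hc μ a L + err + 1 := by
  classical
  have h1 := stop_le L X d τ hμ hX0 hX1 hX2 a r hr hn
  have h2 : ∑ ω, μ ω * (φ (r (a ω)) - err) ≤ ∑ ω, μ ω * log (2 ^ (r (a ω)) *
      (Pr μ (fun ω' => (X (r (a ω)) ω', (L ω', a ω'))) (X (r (a ω)) ω, (L ω, a ω)) /
        Pr μ (fun ω' => (L ω', a ω')) (L ω, a ω))) := by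
    have h3 := sum_fiber μ a (fun c => φ (r c) - err)
    have h3' : ∑ ω, μ ω * (φ (r (a ω)) - err) =
      ∑ c ∈ univ.image a, Pr μ a c * (φ (r c) - err) := h3
    rw [h3']
    refine (sum_le_sum fun c hc => hlev c hc).trans (le_of_eq ?_)
    rw [sum_comm]
    refine sum_congr rfl fun ω _ => ?_
    rw [sum_ite_eq]
    rw [if_pos (mem_image_of_mem a (mem_univ ω))]
  have h4 : ∑ ω, μ ω * φ (τ ω) ≤ ∑ ω, μ ω * (φ (r (a ω)) - err) + (err + 1) := by
    have h5 : ∑ ω, μ ω * (φ (r (a ω)) - err) + (err + 1) =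
        ∑ ω, μ ω * (φ (r (a ω)) - err + (err + 1)) := by
      have h6 : err + 1 = ∑ ω, μ ω * (err + 1) := by rw [← sum_mul, hμ.sum, one_mul]
      calc ∑ ω, μ ω * (φ (r (a ω)) - err) + (err + 1)
          = ∑ ω, μ ω * (φ (r (a ω)) - err) + ∑ ω, μ ω * (err + 1) := by rw [← h6]
        _ = _ := by
          rw [← sum_add_distrib]
          exact sum_congr rfl fun ω _ => by ring
    rw [h5]
    refine sum_le_sum fun ω _ => mul_le_mul_of_nonneg_left ?_ (hμ.nonneg ω)
    have := hφ ω
    have := hφ' ω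
    linarith
  linarith

/-- `H(a | L) ≤ log (M + 1)` for `a ≤ M` -/
lemma Hc_class_le (hμ : IsProb μ) (a : Ω → ℕ) (M : ℕ) (ha : ∀ ω, a ω ≤ M) :
    Hc μ a L ≤ log (M + 1) := by
  refine (Hc_le_H hμ a L).trans ?_
  have h := H_le_log hμ a (range (M + 1)) (fun ω => mem_range.mpr (by have := ha ω; omega))
    (by simp)
  simpa using h

end main

end Vale.Agent.P091.T.H957
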