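import Vale.Agent.P091.T.H957.Drop

/-!
# P091, heart of the T block: the functional `Phi` of a labelled population (helper957)

`p y l ≥ 0` is the weight of the leaf `y` together with the label `l` (label kernel included),
`V` the number of leaves of the node.

* `KK V q W = ∑_{y ∈ W} q y log (q y V / q(W))` : mass times the divergence of `q|W` from the
  uniform law of the node;
* `Phi V p W = ∑_{y ∈ W} ∑_l p y l log (p y l V / p(W, l))` : the same given the label;
* `KK_le_Phi`, `Phi_cut_le`, `Phi_desc` : the three rules.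
-/

set_option autoImplicit false

open Finset Real

noncomputable section

namespace Vale.Agent.P091.T.H957

/-- log-sum inequality -/
lemma log_sum {ι : Type*} (s : Finset ι) (a b : ι → ℝ) (ha : ∀ i ∈ s, 0 ≤ a i)
    (hb : ∀ i ∈ s, 0 ≤ b i) (hab : ∀ i ∈ s, 0 < a i → 0 < b i) :
    ∑ i ∈ s, a i * log (b i / a i) ≤ (∑ i ∈ s, a i) * log ((∑ i ∈ s, b i) / (∑ i ∈ s, a i)) := by
  rcases (sum_nonneg ha).eq_or_lt with h0 | h0
  · have h1 := (sum_eq_zero_iff_of_nonneg ha).mp h0.symm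
    rw [← h0, zero_mul]
    refine le_of_eq (sum_eq_zero fun i hi => ?_)
    rw [h1 i hi, zero_mul]
  · have hB : 0 < ∑ i ∈ s, b i := by
      obtain ⟨i, hi, hi0⟩ := exists_ne_zero_of_sum_ne_zero h0.ne'
      have h2 := hab i hi (lt_of_le_of_ne (ha i hi) (Ne.symm hi0))
      exact sum_pos' hb ⟨i, hi, h2⟩
    set A := ∑ i ∈ s, a i with hA
    set B := ∑ i ∈ s, b i with hBd
    have h1 : ∀ i ∈ s, a i * log (b i / a i) ≤ a i * log (B / A) + (b i * (A / B) - a i) := by
      intro i hi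
      rcases (ha i hi).eq_or_lt with h2 | h2
      · rw [← h2, zero_mul, zero_mul]
        have := hb i hi
        have : 0 ≤ b i * (A / B) := by positivity
        linarith
      · have h3 := hab i hi h2
        have h4 := log_le_sub_one_of_pos (show 0 < (b i / a i) * (A / B) by positivity)
        rw [log_mul (by positivity) (by positivity)] at h4
        have h5 : log (A / B) = - log (B / A) := by rw [← log_inv, inv_div]
        rw [h5] at h4
        have h6 := mul_le_mul_of_nonneg_left h4 h2.le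
        have h7 : a i * ((b i / a i) * (A / B) - 1) = b i * (A / B) - a i := by
          field_simp
        rw [h7] at h6
        linarith
    refine (sum_le_sum h1).trans (le_of_eq ?_)
    rw [sum_add_distrib, ← sum_mul, sum_sub_distrib, ← sum_mul, ← hA, ← hBd]
    field_simp
    ring

variable {Λ : Type*} [Fintype Λ]

/-- mass of `W` with the label `l` -/
def ml (p : ℕ → Λ → ℝ) (W : Finset ℕ) (l : Λ) : ℝ := ∑ y ∈ W, p y l

/-- mass of `W` -/
def mm (p : ℕ → Λ → ℝ) (W : Finset ℕ) : ℝ := ∑ y ∈ W, ∑ l, p y l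

/-- divergence from the uniform law of a node with `V` leaves, given the label, times mass -/
def Phi (V : ℝ) (p : ℕ → Λ → ℝ) (W : Finset ℕ) : ℝ :=
  ∑ y ∈ W, ∑ l, p y l * log (p y l * V / ml p W l)

/-- divergence from the uniform law of a node with `V` leaves, times mass -/
def KK (V : ℝ) (q : ℕ → ℝ) (W : Finset ℕ) : ℝ :=
  ∑ y ∈ W, q y * log (q y * V / ∑ y ∈ W, q y)

lemma mm_eq (p : ℕ → Λ → ℝ) (W : Finset ℕ) : mm p W = ∑ l, ml p W l := by
  unfold mm ml; rw [sum_comm]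

lemma ml_nonneg {p : ℕ → Λ → ℝ} (hp : ∀ y l, 0 ≤ p y l) (W : Finset ℕ) (l : Λ) : 0 ≤ ml p W l :=
  sum_nonneg fun y _ => hp y l

lemma mm_nonneg {p : ℕ → Λ → ℝ} (hp : ∀ y l, 0 ≤ p y l) (W : Finset ℕ) : 0 ≤ mm p W :=
  sum_nonneg fun y _ => sum_nonneg fun l _ => hp y l

lemma le_ml {p : ℕ → Λ → ℝ} (hp : ∀ y l, 0 ≤ p y l) {W : Finset ℕ} {y : ℕ} (hy : y ∈ W) (l : Λ) :
    p y l ≤ ml p W l := single_le_sum (f := fun y => p y l) (fun y _ => hp y l) hy

lemma ml_mono {p : ℕ → Λ → ℝ} (hp : ∀ y l, 0 ≤ p y l) {W Z : Finset ℕ} (h : Z ⊆ W) (l : Λ) :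
    ml p Z l ≤ ml p W l := sum_le_sum_of_subset_of_nonneg h fun y _ _ => hp y l

lemma ml_sdiff {p : ℕ → Λ → ℝ} {W Z : Finset ℕ} (h : Z ⊆ W) (l : Λ) :
    ml p Z l + ml p (W \ Z) l = ml p W l := by
  unfold ml; rw [add_comm, sum_sdiff h]

lemma mm_sdiff {p : ℕ → Λ → ℝ} {W Z : Finset ℕ} (h : Z ⊆ W) :
    mm p Z + mm p (W \ Z) = mm p W := by
  unfold mm; rw [add_comm, sum_sdiff h]

lemma KK_le_Phi {V : ℝ} (hV : 0 < V) {p : ℕ → Λ → ℝ} (hp : ∀ y l, 0 ≤ p y l) (W : Finset ℕ) :
    KK V (fun y => ∑ l, p y l) W ≤ Phi V p W := by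
  unfold KK Phi
  refine sum_le_sum fun y hy => ?_
  have h := log_sum univ (fun l => p y l) (fun l => ml p W l / V) (fun l _ => hp y l)
    (fun l _ => div_nonneg (ml_nonneg hp W l) hV.le)
    (fun l _ h => div_pos (h.trans_le (le_ml hp hy l)) hV)
  have h1 : ∀ l, p y l * log (p y l * V / ml p W l) = - (p y l * log (ml p W l / V / p y l)) := by
    intro l
    rw [← mul_neg, ← log_inv]
    congr 2
    rw [div_div, inv_div, mul_comm V]
  rw [sum_congr rfl fun l _ => h1 l, sum_neg_distrib]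
  have h2 : (∑ l, p y l) * log ((∑ l, p y l) * V / ∑ y ∈ W, ∑ l, p y l) =
      - ((∑ l, p y l) * log ((∑ l, ml p W l / V) / ∑ l, p y l)) := by
    rw [← mul_neg, ← log_inv]
    congr 2
    rw [← sum_div, div_div, inv_div, mul_comm V, ← mm_eq]
    rfl
  rw [h2]
  linarith

/-- change of the reference population -/
lemma Phi_eq_of_subset {V : ℝ} {p : ℕ → Λ → ℝ} (hV : 0 < V) (hp : ∀ y l, 0 ≤ p y l)
    {W Z : Finset ℕ} (h : Z ⊆ W) : Phi V p Z = ∑ y ∈ Z, ∑ l, p y l * log (p y l * V / ml p W l) +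
      ∑ l, ml p Z l * log (ml p W l / ml p Z l) := by
  have h1 : ∑ l, ml p Z l * log (ml p W l / ml p Z l) =
      ∑ y ∈ Z, ∑ l, p y l * log (ml p W l / ml p Z l) := by
    rw [sum_comm]
    refine sum_congr rfl fun l _ => ?_
    rw [← sum_mul]; rfl
  rw [h1, ← sum_add_distrib]
  refine sum_congr rfl fun y hy => ?_
  rw [← sum_add_distrib]
  refine sum_congr rfl fun l _ => ?_
  rcases (hp y l).eq_or_lt with h0 | h0
  · rw [← h0]; ring
  · have hZ := h0.trans_le (le_ml hp hy l)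
    have hW := hZ.trans_le (ml_mono hp h l)
    rw [← mul_add, ← log_mul (by positivity) (by positivity)]
    congr 2
    field_simp

/-- **cut** -/
lemma Phi_cut {V : ℝ} {p : ℕ → Λ → ℝ} (hV : 0 < V) (hp : ∀ y l, 0 ≤ p y l)
    {W Z : Finset ℕ} (h : Z ⊆ W) : Phi V p Z + Phi V p (W \ Z) = Phi V p W +
      (∑ l, ml p Z l * log (ml p W l / ml p Z l) +
        ∑ l, ml p (W \ Z) l * log (ml p W l / ml p (W \ Z) l)) := by
  rw [Phi_eq_of_subset hV hp h, Phi_eq_of_subset hV hp (sdiff_subset (s := W) (t := Z))]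
  have h1 : Phi V p W = ∑ y ∈ Z, ∑ l, p y l * log (p y l * V / ml p W l) +
      ∑ y ∈ W \ Z, ∑ l, p y l * log (p y l * V / ml p W l) := by
    unfold Phi; rw [add_comm, sum_sdiff h]
  rw [h1]; ring

/-- entropy of a cut, at most `m(Z) (log (m(W)/m(Z)) + 1)` -/
lemma cut_ent {p : ℕ → Λ → ℝ} (hp : ∀ y l, 0 ≤ p y l) {W Z : Finset ℕ} (h : Z ⊆ W) :
    ∑ l, ml p Z l * log (ml p W l / ml p Z l) +
        ∑ l, ml p (W \ Z) l * log (ml p W l / ml p (W \ Z) l) ≤
      mm p Z * (log (mm p W / mm p Z) + 1) := by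
  have h1 := log_sum univ (fun l => ml p Z l) (fun l => ml p W l) (fun l _ => ml_nonneg hp Z l)
    (fun l _ => ml_nonneg hp W l) (fun l _ h0 => h0.trans_le (ml_mono hp h l))
  have h2 := log_sum univ (fun l => ml p (W \ Z) l) (fun l => ml p W l)
    (fun l _ => ml_nonneg hp _ l)
    (fun l _ => ml_nonneg hp W l) (fun l _ h0 => h0.trans_le (ml_mono hp sdiff_subset l))
  rw [← mm_eq, ← mm_eq] at h1 h2
  have h3 : mm p (W \ Z) * log (mm p W / mm p (W \ Z)) ≤ mm p Z := by
    have h4 := mm_sdiff (p := p) h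
    rcases (mm_nonneg hp (W \ Z)).eq_or_lt with h0 | h0
    · rw [← h0, zero_mul]; exact mm_nonneg hp Z
    · have hW : 0 < mm p W := by have := mm_nonneg hp Z; linarith
      have h5 := log_le_sub_one_of_pos (div_pos hW h0)
      have h6 := mul_le_mul_of_nonneg_left h5 h0.le
      have h7 : mm p (W \ Z) * (mm p W / mm p (W \ Z) - 1) = mm p W - mm p (W \ Z) := by
        field_simp
      linarith
  linarith

/-- contribution of one child to the divergence of the digit -/
def br (p : ℕ → Λ → ℝ) (W Z : Finset ℕ) : ℝ :=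
  ∑ l, ml p Z l * log (2 * (ml p Z l / ml p W l))

/-- **descent** to one of the children (`V/2` leaves) -/
lemma Phi_child {V : ℝ} {p : ℕ → Λ → ℝ} (hV : 0 < V) (hp : ∀ y l, 0 ≤ p y l)
    {W Z : Finset ℕ} (h : Z ⊆ W) : Phi (V / 2) p Z + br p W Z =
      ∑ y ∈ Z, ∑ l, p y l * log (p y l * V / ml p W l) := by
  have h1 : br p W Z = ∑ y ∈ Z, ∑ l, p y l * log (2 * (ml p Z l / ml p W l)) := by
    unfold br
    rw [sum_comm]
    refine sum_congr rfl fun l _ => ?_
    rw [← sum_mul]; rfl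
  unfold Phi
  rw [h1, ← sum_add_distrib]
  refine sum_congr rfl fun y hy => ?_
  rw [← sum_add_distrib]
  refine sum_congr rfl fun l _ => ?_
  rcases (hp y l).eq_or_lt with h0 | h0
  · rw [← h0]; ring
  · have hZ := h0.trans_le (le_ml hp hy l)
    have hW := hZ.trans_le (ml_mono hp h l)
    rw [← mul_add, ← log_mul (by positivity) (by positivity)]
    congr 2
    field_simp

lemma Phi_desc {V : ℝ} {p : ℕ → Λ → ℝ} (hV : 0 < V) (hp : ∀ y l, 0 ≤ p y l)
    {W Z Z' : Finset ℕ} (hd : Disjoint Z Z') (h : Z ∪ Z' = W) :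
    Phi V p W = Phi (V / 2) p Z + Phi (V / 2) p Z' + (br p W Z + br p W Z') := by
  have h1 : Z ⊆ W := h ▸ subset_union_left
  have h2 : Z' ⊆ W := h ▸ subset_union_right
  have e1 := Phi_child hV hp h1
  have e2 := Phi_child hV hp h2
  have e3 : Phi V p W = ∑ y ∈ Z, ∑ l, p y l * log (p y l * V / ml p W l) +
      ∑ y ∈ Z', ∑ l, p y l * log (p y l * V / ml p W l) := by
    unfold Phi; conv_lhs => rw [← h]
    rw [sum_union hd, h]
  rw [e3, ← e1, ← e2]; ring

/-- the divergence of one digit is nonnegative -/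
lemma br_nonneg {p : ℕ → Λ → ℝ} (hp : ∀ y l, 0 ≤ p y l)
    {W Z Z' : Finset ℕ} (hd : Disjoint Z Z') (h : Z ∪ Z' = W) :
    0 ≤ br p W Z + br p W Z' := by
  unfold br
  rw [← sum_add_distrib]
  refine sum_nonneg fun l _ => ?_
  have e : ml p Z l + ml p Z' l = ml p W l := by
    unfold ml; rw [← h, sum_union hd]
  have key : ∀ x w : ℝ, 0 ≤ x → x ≤ w → x - w / 2 ≤ x * log (2 * (x / w)) := by
    intro x w hx hxw
    rcases hx.eq_or_lt with h0 | h0
    · rw [← h0]; linarith
    · have hw : 0 < w := h0.trans_le hxw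
      have h3 := one_sub_inv_le_log_of_pos (show 0 < 2 * (x / w) by positivity)
      have h4 := mul_le_mul_of_nonneg_left h3 h0.le
      have h5 : x * (1 - (2 * (x / w))⁻¹) = x - w / 2 := by field_simp
      linarith
  have h1 := key _ _ (ml_nonneg hp Z l) (by have := ml_nonneg hp Z' l; linarith : ml p Z l ≤ ml p W l)
  have h2 := key _ _ (ml_nonneg hp Z' l) (by have := ml_nonneg hp Z l; linarith : ml p Z' l ≤ ml p W l)
  linarith

end Vale.Agent.P091.T.H957
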