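import Vale.Agent.P091.T.H957.ExitTree

/-!
# P091, heart of the T block: the exit inequality of one epoch (helper957)

`W` = the `y`-set of a state at the node `(j, a)`, `p y l` = weight of `y` times the probability of
the label `l`, `F` a function of the level (entropy of the rounded word), `e` the exit tree.

* `exit_F` : `∑ mass · (F j - F (exit level)) ≤ divergence of the digits + mass (log (M+1) + err + 1)`;
* `exit_KF` : the combination with `exit_Phi`.
-/

set_option autoImplicit false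

open Finset Real

noncomputable section

namespace Vale.Agent.P091.T.H957

open Vale.Agent.P091.Spec (nd anc)
open Vale.Agent.P065.Ent

universe u
variable {β : Type u} {Λ : Type*} [Fintype Λ]

/-- the law of (leaf, label) -/
def lawW (p : ℕ → Λ → ℝ) (W : Finset ℕ) (ω : W × Λ) : ℝ := p ω.1 ω.2 / mm p W

lemma lawW_isProb {p : ℕ → Λ → ℝ} (hp : ∀ y l, 0 ≤ p y l) {W : Finset ℕ} (hm : 0 < mm p W) :
    IsProb (lawW p W) := by
  refine ⟨fun ω => div_nonneg (hp _ _) hm.le, ?_⟩
  unfold lawW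
  rw [Fintype.sum_prod_type, sum_coe_sort W (fun y => ∑ l, p y l / mm p W)]
  simp only [← sum_div]
  exact div_self hm.ne'

lemma Pr_lawW {α : Type*} {p : ℕ → Λ → ℝ} {W : Finset ℕ} (X : W × Λ → α) (x : α) (P : ℕ → Prop)
    [DecidablePred P] (l : Λ) (h : ∀ ω : W × Λ, X ω = x ↔ P ω.1 ∧ ω.2 = l) :
    Pr (lawW p W) X x = ml p (W.filter P) l / mm p W := by
  classical
  unfold Pr
  have h1 : ∀ ω : W × Λ, (if X ω = x then lawW p W ω else 0) =
      if ω.2 = l then (if P ω.1 then p ω.1 ω.2 / mm p W else 0) else 0 := by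
    intro ω
    by_cases h2 : P ω.1
    · by_cases h3 : ω.2 = l
      · rw [if_pos ((h ω).mpr ⟨h2, h3⟩), if_pos h3, if_pos h2]; rfl
      · rw [if_neg fun h4 => h3 ((h ω).mp h4).2, if_neg h3]
    · rw [if_neg fun h4 => h2 ((h ω).mp h4).1, if_neg h2]; simp
  rw [sum_congr rfl fun ω _ => h1 ω, Fintype.sum_prod_type]
  simp only [sum_ite_eq', mem_univ, if_true]
  rw [sum_coe_sort W (fun y => if P y then p y l / mm p W else 0), ← sum_filter]
  unfold ml
  rw [sum_div]

/-- expectation under `lawW` -/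
lemma sum_lawW {p : ℕ → Λ → ℝ} {W : Finset ℕ} (f : ℕ → Λ → ℝ) :
    ∑ ω : W × Λ, lawW p W ω * f ω.1 ω.2 = (∑ y ∈ W, ∑ l, p y l * f y l) / mm p W := by
  unfold lawW
  rw [Fintype.sum_prod_type, sum_coe_sort W (fun y => ∑ l, p y l / mm p W * f y l), sum_div]
  refine sum_congr rfl fun y _ => ?_
  rw [sum_div]
  exact sum_congr rfl fun l _ => by ring

theorem Dpath_eq {n j : ℕ} {p : ℕ → Λ → ℝ} {W : Finset ℕ} {lev : ℕ → ℕ}
    (h1 : ∀ y, j ≤ lev y) (h2 : ∀ y, lev y ≤ n) :
    Dpath (lawW p W) (fun ω : W × Λ => ω.2) (fun t ω => anc n (j + t) ω.1)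
      (fun ω => lev ω.1 - j) (n - j) = Dcl n p lev j W / mm p W := by
  classical
  unfold Dpath
  have e1 : ∀ t, ∑ ω : W × Λ, (if t < lev ω.1 - j then lawW p W ω *
      log (2 * (Pr (lawW p W) (fun ω : W × Λ => (anc n (j + (t + 1)) ω.1, ω.2,
        decide (t < lev ω.1 - j))) (anc n (j + (t + 1)) ω.1, ω.2, decide (t < lev ω.1 - j)) /
      Pr (lawW p W) (fun ω : W × Λ => (anc n (j + t) ω.1, ω.2, decide (t < lev ω.1 - j)))
        (anc n (j + t) ω.1, ω.2, decide (t < lev ω.1 - j)))) else 0) =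
      ∑ ω : W × Λ, lawW p W ω * (fun y l => if t < lev y - j then
        log (2 * (ml p (sel n W lev (j + t) (j + t + 1) y) l /
          ml p (sel n W lev (j + t) (j + t) y) l)) else 0) ω.1 ω.2 := by
    intro t
    refine sum_congr rfl fun ω _ => ?_
    by_cases ht : t < lev ω.1 - j
    · simp only [if_pos ht]
      have f : ∀ s, Pr (lawW p W) (fun ω : W × Λ => (anc n s ω.1, ω.2,
          decide (t < lev ω.1 - j))) (anc n s ω.1, ω.2, decide (t < lev ω.1 - j)) =
          ml p (sel n W lev (j + t) s ω.1) ω.2 / mm p W := by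
        intro s
        refine Pr_lawW _ _ (fun y' => j + t < lev y' ∧ anc n s y' = anc n s ω.1) ω.2 fun ω' => ?_
        simp only [Prod.mk.injEq, ht, decide_true, decide_eq_true_eq]
        constructor
        · rintro ⟨g1, g2, g3⟩
          exact ⟨⟨by omega, g1⟩, g2⟩
        · rintro ⟨⟨g1, g2⟩, g3⟩
          exact ⟨g2, g3, by omega⟩
      rw [f, f]
      rcases eq_or_ne (mm p W) 0 with hm | hm
      · unfold lawW; rw [hm]; simp
      · rw [div_div_div_cancel_right₀ hm, add_assoc]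
    · simp only [if_neg ht, mul_zero]
  rw [sum_congr rfl fun t _ => (e1 t).trans (sum_lawW (fun y l => if t < lev y - j then
        log (2 * (ml p (sel n W lev (j + t) (j + t + 1) y) l /
          ml p (sel n W lev (j + t) (j + t) y) l)) else 0))]
  rw [← sum_div]
  congr 1
  unfold Dcl
  rw [sum_comm]
  refine sum_congr rfl fun y _ => ?_
  rw [sum_comm]
  refine sum_congr rfl fun l _ => ?_
  rw [← mul_sum, ← sum_filter]
  congr 1
  have e2 : Ico j (lev y) = ((range (n - j)).filter fun t => t < lev y - j).map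
      (addLeftEmbedding j) := by
    ext s
    simp only [mem_Ico, mem_map, mem_filter, mem_range, addLeftEmbedding_apply]
    have := h1 y
    have := h2 y
    constructor
    · rintro ⟨g1, g2⟩
      exact ⟨s - j, ⟨by omega, by omega⟩, by omega⟩
    · rintro ⟨s', ⟨g1, g2⟩, rfl⟩
      omega
  rw [e2, sum_map]
  rfl

/-- **drop of `F` along the exits** -/
theorem exit_F {n j a : ℕ} {p : ℕ → Λ → ℝ} (hp : ∀ y l, 0 ≤ p y l) {W : Finset ℕ}
    (hm : 0 < mm p W) (hW : W ⊆ nd n j a) {lev : ℕ → ℕ} (hj : ∀ y, j ≤ lev y)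
    (hn : ∀ y, lev y ≤ n) {F : ℕ → ℝ} (hF : ∀ s t, j ≤ s → s ≤ t → F t ≤ F s) {M : ℕ}
    (hM : F j - F n ≤ M) {err : ℝ}
    (hT5 : ∀ Z ⊆ W, 0 < mm p Z → ∀ t, j + t ≤ n → mm p Z * (F j - F (j + t) - err) ≤
      ∑ y ∈ Z, ∑ l, p y l * log (2 ^ t * (ml p (Z.filter fun y' => anc n (j + t) y' =
        anc n (j + t) y) l / ml p Z l))) :
    ∑ y ∈ W, (∑ l, p y l) * (F j - F (lev y)) ≤
      Dcl n p lev j W + mm p W * (log (M + 1) + err + 1) := by
  classical
  set φ : ℕ → ℝ := fun t => F j - F (j + t) with hφ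
  have hφmono : ∀ s t, s ≤ t → φ s ≤ φ t := fun s t h => by
    have := hF (j + s) (j + t) (by omega) (by omega)
    simp only [hφ]; linarith
  have hφ0 : φ 0 = 0 := by simp [hφ]
  have hφnn : ∀ t, 0 ≤ φ t := fun t => by have := hφmono 0 t (Nat.zero_le t); linarith
  set τ : W × Λ → ℕ := fun ω => lev ω.1 - j with hτ
  set aa : W × Λ → ℕ := fun ω => ⌊φ (τ ω)⌋₊ with haa
  have hex : ∀ ω, ∃ t, ((aa ω : ℕ) : ℝ) ≤ φ t := fun ω => ⟨τ ω, Nat.floor_le (hφnn _)⟩
  set r : ℕ → ℕ := fun c => if h : ∃ t, (c : ℝ) ≤ φ t then Nat.find h else 0 with hr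
  have hr1 : ∀ ω, (aa ω : ℝ) ≤ φ (r (aa ω)) := by
    intro ω
    simp only [hr, dif_pos (hex ω)]
    exact Nat.find_spec (hex ω)
  have hr2 : ∀ ω, r (aa ω) ≤ τ ω := by
    intro ω
    simp only [hr, dif_pos (hex ω)]
    exact Nat.find_min' (hex ω) (Nat.floor_le (hφnn _))
  have hμ := lawW_isProb hp hm
  have hτn : ∀ ω, τ ω ≤ n - j := fun ω => by
    have := hn (ω.1 : ℕ); simp only [hτ]; omega
  -- digits
  set d : ℕ → W × Λ → Bool := fun t ω => decide (anc n (j + t + 1) ω.1 % 2 = 1) with hd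
  set X : ℕ → W × Λ → ℕ := fun t ω => anc n (j + t) ω.1 with hX
  have hX0 : ∀ ω ω', X 0 ω = X 0 ω' := by
    intro ω ω'
    simp only [hX, add_zero]
    rw [mem_nd.mp (hW ω.1.2), mem_nd.mp (hW ω'.1.2)]
  have hX1 : ∀ t, Det (X (t + 1)) (fun ω => (X t ω, d t ω)) := by
    intro t ω ω' e
    have e' : anc n (j + t + 1) ω.1 = anc n (j + t + 1) ω'.1 := e
    simp only [hX, hd, Prod.mk.injEq]
    exact ⟨anc_of_le (Nat.le_succ _) e', by rw [e']⟩
  have hX2 : ∀ t, Det (fun ω => (X t ω, d t ω)) (X (t + 1)) := by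
    intro t ω ω' e
    simp only [hX, hd, Prod.mk.injEq, decide_eq_decide] at e
    obtain ⟨e1, e2⟩ := e
    show anc n (j + t + 1) ω.1 = anc n (j + t + 1) ω'.1
    rcases Nat.lt_or_ge (j + t) n with h | h
    · have g1 := anc_succ_div (n := n) (j := j + t) (by omega) ω.1
      have g2 := anc_succ_div (n := n) (j := j + t) (by omega) ω'.1
      rw [e1] at g1
      omega
    · have g1 : n - (j + t) = 0 := by omega
      have g2 : n - (j + t + 1) = 0 := by omega
      unfold anc at e1 ⊢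
      rw [g1] at e1
      rw [g2]
      exact e1
  have hlev : ∀ c ∈ univ.image aa, Pr (lawW p W) aa c * (φ (r c) - err) ≤
      ∑ ω, if aa ω = c then lawW p W ω * log (2 ^ (r c) *
        (Pr (lawW p W) (fun ω' => (X (r c) ω', (ω'.2, aa ω'))) (X (r c) ω, (ω.2, aa ω)) /
          Pr (lawW p W) (fun ω' => (ω'.2, aa ω')) (ω.2, aa ω))) else 0 := by
    intro c hc
    obtain ⟨ω0, -, hω0⟩ := mem_image.mp hc
    set Z : Finset ℕ := W.filter fun y => ⌊φ (lev y - j)⌋₊ = c with hZ
    -- the right side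
    have e1 : ∑ ω, (if aa ω = c then lawW p W ω * log (2 ^ (r c) *
        (Pr (lawW p W) (fun ω' => (X (r c) ω', (ω'.2, aa ω'))) (X (r c) ω, (ω.2, aa ω)) /
          Pr (lawW p W) (fun ω' => (ω'.2, aa ω')) (ω.2, aa ω))) else 0) =
        ∑ ω : W × Λ, lawW p W ω * (fun y l => if ⌊φ (lev y - j)⌋₊ = c then
          log (2 ^ (r c) * (ml p (Z.filter fun y' => anc n (j + r c) y' = anc n (j + r c) y) l /
            ml p Z l)) else 0) ω.1 ω.2 := by
      refine sum_congr rfl fun ω _ => ?_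
      have haω : aa ω = ⌊φ (lev ω.1 - j)⌋₊ := rfl
      by_cases h : aa ω = c
      · have h' : ⌊φ (lev ω.1 - j)⌋₊ = c := h
        rw [if_pos h]
        simp only [if_pos h']
        have f1 : Pr (lawW p W) (fun ω' => (X (r c) ω', (ω'.2, aa ω'))) (X (r c) ω, (ω.2, aa ω)) =
            ml p (Z.filter fun y' => anc n (j + r c) y' = anc n (j + r c) ω.1) ω.2 / mm p W := by
          rw [hZ, filter_filter, h]
          refine Pr_lawW _ _ (fun y' => ⌊φ (lev y' - j)⌋₊ = c ∧
            anc n (j + r c) y' = anc n (j + r c) ω.1) ω.2 fun ω' => ?_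
          simp only [Prod.mk.injEq, hX, haa, hτ]
          constructor
          · rintro ⟨g1, g2, g3⟩; exact ⟨⟨g3, g1⟩, g2⟩
          · rintro ⟨⟨g3, g1⟩, g2⟩; exact ⟨g1, g2, g3⟩
        have f2 : Pr (lawW p W) (fun ω' => (ω'.2, aa ω')) (ω.2, aa ω) =
            ml p Z ω.2 / mm p W := by
          rw [hZ, h]
          refine Pr_lawW _ _ (fun y' => ⌊φ (lev y' - j)⌋₊ = c) ω.2 fun ω' => ?_
          simp only [Prod.mk.injEq, haa, hτ]
          constructor
          · rintro ⟨g1, g2⟩; exact ⟨g2, g1⟩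
          · rintro ⟨g1, g2⟩; exact ⟨g2, g1⟩
        rw [f1, f2, div_div_div_cancel_right₀ hm.ne']
      · have h' : ¬ ⌊φ (lev ω.1 - j)⌋₊ = c := h
        rw [if_neg h]
        simp only [if_neg h', mul_zero]
    rw [e1, sum_lawW (fun y l => if ⌊φ (lev y - j)⌋₊ = c then
          log (2 ^ (r c) * (ml p (Z.filter fun y' => anc n (j + r c) y' = anc n (j + r c) y) l /
            ml p Z l)) else 0)]
    have e2 : Pr (lawW p W) aa c = mm p Z / mm p W := by
      have e3 := sum_lawW (p := p) (W := W) (fun y _ => if ⌊φ (lev y - j)⌋₊ = c then (1 : ℝ) else 0)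
      have e4 : Pr (lawW p W) aa c = ∑ ω : W × Λ, lawW p W ω *
          (fun y (_ : Λ) => if ⌊φ (lev y - j)⌋₊ = c then (1 : ℝ) else 0) ω.1 ω.2 := by
        unfold Pr
        refine sum_congr rfl fun ω _ => ?_
        simp only [mul_ite, mul_one, mul_zero]
        by_cases h : aa ω = c
        · rw [if_pos h, if_pos (show ⌊φ (lev ω.1 - j)⌋₊ = c from h)]
        · rw [if_neg h, if_neg (show ¬ ⌊φ (lev ω.1 - j)⌋₊ = c from h)]
      rw [e4, e3]
      congr 1
      simp only [mul_ite, mul_one, mul_zero]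
      rw [hZ]
      unfold mm
      rw [sum_filter]
      refine sum_congr rfl fun y _ => ?_
      split_ifs
      · rfl
      · simp
    rw [e2, div_mul_eq_mul_div]
    refine div_le_div_of_nonneg_right ?_ hm.le
    have e5 : ∑ y ∈ W, ∑ l, p y l * (if ⌊φ (lev y - j)⌋₊ = c then
          log (2 ^ (r c) * (ml p (Z.filter fun y' => anc n (j + r c) y' = anc n (j + r c) y) l /
            ml p Z l)) else 0) = ∑ y ∈ Z, ∑ l, p y l * log (2 ^ (r c) *
            (ml p (Z.filter fun y' => anc n (j + r c) y' = anc n (j + r c) y) l / ml p Z l)) := by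
      conv_rhs => rw [hZ, sum_filter]
      refine sum_congr rfl fun y _ => ?_
      split_ifs with h
      · rfl
      · simp
    rw [e5]
    rcases (mm_nonneg hp Z).eq_or_lt with h0 | h0
    · rw [← h0, zero_mul]
      refine le_of_eq ?_
      symm
      have h3 := (sum_eq_zero_iff_of_nonneg (fun y _ => sum_nonneg fun l _ => hp y l)).mp h0.symm
      refine sum_eq_zero fun y hy => sum_eq_zero fun l _ => ?_
      have h4 := (sum_eq_zero_iff_of_nonneg (fun l _ => hp y l)).mp (h3 y hy) l (mem_univ l)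
      rw [h4, zero_mul]
    · refine hT5 Z (filter_subset _ _) h0 (r c) ?_
      have h5 := hr2 ω0
      rw [hω0] at h5
      have h6 := hτn ω0
      have h7 := hj (ω0.1 : ℕ)
      have h8 := hn (ω0.1 : ℕ)
      omega
  have key := drop (fun ω : W × Λ => ω.2) X d τ hμ hX0 hX1 hX2 aa r hr2 hτn φ err
    (fun ω => (Nat.lt_floor_add_one _).le) hr1 hlev
  have hD := Dpath_eq (p := p) (W := W) (n := n) (j := j) (lev := lev) hj hn
  have hH := Hc_class_le (fun ω : W × Λ => ω.2) hμ aa M (fun ω => by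
    have h3 : φ (τ ω) ≤ M := by
      refine le_trans (hφmono _ _ (hτn ω)) ?_
      have h7 := hj (ω.1 : ℕ)
      have h8 := hn (ω.1 : ℕ)
      have h9 : j + (n - j) = n := by omega
      simp only [hφ, h9]
      exact hM
    exact Nat.floor_le_of_le h3)
  have e6 := sum_lawW (p := p) (W := W) (fun y _ => φ (lev y - j))
  have e7 : ∑ ω : W × Λ, lawW p W ω * φ (τ ω) =
      (∑ y ∈ W, ∑ l, p y l * φ (lev y - j)) / mm p W := e6
  rw [e7, hD] at key
  have e8 : ∑ y ∈ W, (∑ l, p y l) * (F j - F (lev y)) = ∑ y ∈ W, ∑ l, p y l * φ (lev y - j) := by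
    refine sum_congr rfl fun y _ => ?_
    rw [sum_mul]
    refine sum_congr rfl fun l _ => ?_
    have := hj y
    simp only [hφ, show j + (lev y - j) = lev y by omega]
  rw [e8]
  have e9 : (∑ y ∈ W, ∑ l, p y l * φ (lev y - j)) ≤
      mm p W * (Dcl n p lev j W / mm p W + Hc (lawW p W) aa (fun ω : W × Λ => ω.2) + err + 1) := by
    rw [div_le_iff₀ hm] at key
    linarith
  refine e9.trans ?_
  have e10 : mm p W * (Dcl n p lev j W / mm p W) = Dcl n p lev j W := by
    field_simp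
  have := mul_le_mul_of_nonneg_left hH hm.le
  nlinarith

end Vale.Agent.P091.T.H957
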