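import Vale.Agent.P091.T.H957.Exit
import Vale.Agent.P091.H74.Spec

/-!
# P091, heart of the T block: the exits of one epoch (helper957)
-/

set_option autoImplicit false

open Finset Real

noncomputable section

namespace Vale.Agent.P091.T.H957

open Vale.Agent.P091.Spec (nd anc)

universe u
variable {β : Type u} {Λ : Type*} [Fintype Λ]

/-- the exit tree of one epoch -/
inductive Ep (β : Type u) : Type u where
  | stop : Ep β
  | cut (b : β) (Y : Finset ℕ) (rest : Ep β) : Ep β
  | desc (l r : Ep β) : Ep β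

/-- the level at which the leaf `y` leaves -/
def Ep.lev (n : ℕ) : Ep β → ℕ → ℕ → ℕ → ℕ
  | .stop, j, _, _ => j
  | .cut _ Y r, j, a, y => if y ∈ Y then j else r.lev n j a y
  | .desc l r, j, a, y => if anc n (j + 1) y = 2 * a then l.lev n (j + 1) (2 * a) y
      else r.lev n (j + 1) (2 * a + 1) y

/-- well-formed trees -/
def Ep.Ok (n : ℕ) : Ep β → ℕ → ℕ → Finset ℕ → Prop
  | .stop, _, _, _ => True
  | .cut _ Y r, j, a, W => Y ⊆ W ∧ r.Ok n j a (W \ Y)
  | .desc l r, j, a, W => j + 1 ≤ n ∧ l.Ok n (j + 1) (2 * a) (W ∩ nd n (j + 1) (2 * a)) ∧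
      r.Ok n (j + 1) (2 * a + 1) (W ∩ nd n (j + 1) (2 * a + 1))

/-- sum over the exits of a function of (level, node, rest, piece, kind) -/
def Ep.exsum (n : ℕ) (g : ℕ → ℕ → Finset ℕ → Finset ℕ → Option β → ℝ) :
    Ep β → ℕ → ℕ → Finset ℕ → ℝ
  | .stop, j, a, W => g j a W W none
  | .cut b Y r, j, a, W => g j a W Y (some b) + r.exsum n g j a (W \ Y)
  | .desc l r, j, a, W => l.exsum n g (j + 1) (2 * a) (W ∩ nd n (j + 1) (2 * a)) +
      r.exsum n g (j + 1) (2 * a + 1) (W ∩ nd n (j + 1) (2 * a + 1))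

/-- divergence of the digits -/
def Ep.Dst (n : ℕ) (p : ℕ → Λ → ℝ) : Ep β → ℕ → ℕ → Finset ℕ → ℝ
  | .stop, _, _, _ => 0
  | .cut _ Y r, j, a, W => r.Dst n p j a (W \ Y)
  | .desc l r, j, a, W =>
      (br p W (W ∩ nd n (j + 1) (2 * a)) + br p W (W ∩ nd n (j + 1) (2 * a + 1))) +
      (l.Dst n p (j + 1) (2 * a) (W ∩ nd n (j + 1) (2 * a)) +
      r.Dst n p (j + 1) (2 * a + 1) (W ∩ nd n (j + 1) (2 * a + 1)))

/-! ### nodes -/

lemma mem_nd {n j a i : ℕ} : i ∈ nd n j a ↔ anc n j i = a := by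
  unfold nd anc
  have h : 0 < 2 ^ (n - j) := by positivity
  rw [mem_Ico, Nat.div_eq_iff h]
  constructor
  · rintro ⟨h1, h2⟩
    have : (a + 1) * 2 ^ (n - j) = a * 2 ^ (n - j) + 2 ^ (n - j) := by ring
    omega
  · rintro ⟨h1, h2⟩
    have : (a + 1) * 2 ^ (n - j) = a * 2 ^ (n - j) + 2 ^ (n - j) := by ring
    omega

lemma anc_succ_div {n j : ℕ} (h : j + 1 ≤ n) (i : ℕ) : anc n (j + 1) i / 2 = anc n j i := by
  unfold anc
  rw [Nat.div_div_eq_div_mul, ← pow_succ]
  congr 2
  omega

lemma anc_of_le {n s t : ℕ} (h : s ≤ t) {i i' : ℕ} (e : anc n t i = anc n t i') :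
    anc n s i = anc n s i' := by
  rcases le_total t n with ht | ht
  · obtain ⟨d, rfl⟩ := Nat.exists_eq_add_of_le h
    clear h
    induction d with
    | zero => exact e
    | succ d ih =>
      refine ih ?_ (by omega)
      rw [← anc_succ_div (by omega : s + d + 1 ≤ n), ← anc_succ_div (by omega : s + d + 1 ≤ n),
        show s + d + 1 = s + (d + 1) by ring, e]
  · have h1 : n - t = 0 := by omega
    have : i = i' := by simpa [anc, h1] using e
    rw [this]

lemma nd_split {n j a : ℕ} (h : j + 1 ≤ n) {W : Finset ℕ} (hW : W ⊆ nd n j a) :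
    (W ∩ nd n (j + 1) (2 * a)) ∪ (W ∩ nd n (j + 1) (2 * a + 1)) = W := by
  ext i
  simp only [mem_union, mem_inter, mem_nd]
  constructor
  · rintro (h1 | h1) <;> exact h1.1
  · intro h1
    have h2 := mem_nd.mp (hW h1)
    have h3 := anc_succ_div h i
    rw [h2] at h3
    have : anc n (j + 1) i = 2 * a ∨ anc n (j + 1) i = 2 * a + 1 := by omega
    rcases this with h4 | h4
    · exact Or.inl ⟨h1, h4⟩
    · exact Or.inr ⟨h1, h4⟩

lemma nd_disj {n j a : ℕ} {W : Finset ℕ} :
    Disjoint (W ∩ nd n (j + 1) (2 * a)) (W ∩ nd n (j + 1) (2 * a + 1)) := by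
  rw [disjoint_left]
  intro i h1 h2
  have h3 := mem_nd.mp (mem_inter.mp h1).2
  have h4 := mem_nd.mp (mem_inter.mp h2).2
  omega

/-! ### the divergence part of the exit inequality -/

/-- entropy of the cuts -/
def cutcost (p : ℕ → Λ → ℝ) (_ _ : ℕ) (W Y : Finset ℕ) (k : Option β) : ℝ :=
  if k.isSome then mm p Y * (log (mm p W / mm p Y) + 1) else 0

theorem exit_Phi {n : ℕ} {p : ℕ → Λ → ℝ} (hp : ∀ y l, 0 ≤ p y l) (e : Ep β) :
    ∀ {j a : ℕ} {W : Finset ℕ}, e.Ok n j a W → W ⊆ nd n j a → j ≤ n →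
    e.exsum n (fun j' _ _ Y _ => Phi (2 ^ (n - j')) p Y) j a W + e.Dst n p j a W ≤
      Phi (2 ^ (n - j)) p W + e.exsum n (cutcost p) j a W := by
  induction e with
  | stop =>
    intro j a W _ _ _
    simp [Ep.exsum, Ep.Dst, cutcost]
  | cut b Y r ih =>
    intro j a W hok hW hj
    obtain ⟨h1, h2⟩ := hok
    have h3 := ih h2 (sdiff_subset.trans hW) hj
    have h4 := Phi_cut (V := 2 ^ (n - j)) (by positivity) hp h1
    have h5 := cut_ent hp h1
    simp only [Ep.exsum, Ep.Dst, cutcost, Option.isSome_some, if_true]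
    linarith
  | desc l r ihl ihr =>
    intro j a W hok hW hj
    obtain ⟨h1, h2, h3⟩ := hok
    have h4 := ihl h2 inter_subset_right h1
    have h5 := ihr h3 inter_subset_right h1
    have h6 := Phi_desc (V := 2 ^ (n - j)) (by positivity) hp nd_disj (nd_split h1 hW)
    have h7 : (2 : ℝ) ^ (n - j) / 2 = 2 ^ (n - (j + 1)) := by
      have : n - j = n - (j + 1) + 1 := by omega
      rw [this, pow_succ]; ring
    rw [h7] at h6
    simp only [Ep.exsum, Ep.Dst]
    linarith

/-! ### the closed form of the divergence of the digits -/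

/-- the population which passes level `t` and agrees with `y` down to level `s` -/
def sel (n : ℕ) (W : Finset ℕ) (lev : ℕ → ℕ) (t s y : ℕ) : Finset ℕ :=
  W.filter fun y' => t < lev y' ∧ anc n s y' = anc n s y

lemma mem_sel {n : ℕ} {W : Finset ℕ} {lev : ℕ → ℕ} {t s y y' : ℕ} :
    y' ∈ sel n W lev t s y ↔ y' ∈ W ∧ t < lev y' ∧ anc n s y' = anc n s y := mem_filter

/-- the closed form -/
def Dcl (n : ℕ) (p : ℕ → Λ → ℝ) (lev : ℕ → ℕ) (j : ℕ) (W : Finset ℕ) : ℝ :=
  ∑ y ∈ W, ∑ l, p y l * ∑ t ∈ Ico j (lev y),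
    log (2 * (ml p (sel n W lev t (t + 1) y) l / ml p (sel n W lev t t y) l))

lemma Ep.le_lev (n : ℕ) (e : Ep β) : ∀ (j a y : ℕ), j ≤ e.lev n j a y := by
  induction e with
  | stop => intro j a y; exact le_rfl
  | cut b Y r ih =>
    intro j a y
    simp only [Ep.lev]
    split_ifs
    · exact le_rfl
    · exact ih j a y
  | desc l r ihl ihr =>
    intro j a y
    simp only [Ep.lev]
    split_ifs
    · exact (Nat.le_succ j).trans (ihl _ _ y)
    · exact (Nat.le_succ j).trans (ihr _ _ y)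

lemma Ep.lev_le (n : ℕ) (e : Ep β) : ∀ {j a : ℕ} {W : Finset ℕ}, e.Ok n j a W → j ≤ n →
    ∀ y, e.lev n j a y ≤ n := by
  induction e with
  | stop => intro j a W _ hj y; exact hj
  | cut b Y r ih =>
    intro j a W hok hj y
    simp only [Ep.lev]
    split_ifs
    · exact hj
    · exact ih hok.2 hj y
  | desc l r ihl ihr =>
    intro j a W hok hj y
    simp only [Ep.lev]
    split_ifs
    · exact ihl hok.2.1 hok.1 y
    · exact ihr hok.2.2 hok.1 y

theorem Dst_eq {n : ℕ} {p : ℕ → Λ → ℝ} (e : Ep β) :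
    ∀ {j a : ℕ} {W : Finset ℕ}, e.Ok n j a W → W ⊆ nd n j a → j ≤ n →
    e.Dst n p j a W = Dcl n p (e.lev n j a) j W := by
  induction e with
  | stop =>
    intro j a W _ _ _
    simp [Ep.Dst, Dcl, Ep.lev]
  | cut b Y r ih =>
    intro j a W hok hW hj
    obtain ⟨h1, h2⟩ := hok
    simp only [Ep.Dst]
    rw [ih h2 (sdiff_subset.trans hW) hj]
    unfold Dcl
    rw [← sum_sdiff h1 (f := fun y => ∑ l, p y l * ∑ t ∈ Ico j ((Ep.cut b Y r).lev n j a y),
      log (2 * (ml p (sel n W ((Ep.cut b Y r).lev n j a) t (t + 1) y) l /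
        ml p (sel n W ((Ep.cut b Y r).lev n j a) t t y) l)))]
    have h3 : ∑ y ∈ Y, ∑ l, p y l * ∑ t ∈ Ico j ((Ep.cut b Y r).lev n j a y),
      log (2 * (ml p (sel n W ((Ep.cut b Y r).lev n j a) t (t + 1) y) l /
        ml p (sel n W ((Ep.cut b Y r).lev n j a) t t y) l)) = 0 := by
      refine sum_eq_zero fun y hy => sum_eq_zero fun l _ => ?_
      simp only [Ep.lev, if_pos hy]
      simp
    rw [h3, add_zero]
    refine sum_congr rfl fun y hy => sum_congr rfl fun l _ => ?_
    have hyY := (mem_sdiff.mp hy).2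
    have h4 : (Ep.cut b Y r).lev n j a y = r.lev n j a y := by simp only [Ep.lev, if_neg hyY]
    rw [h4]
    refine congrArg (p y l * ·) (sum_congr rfl fun t ht => ?_)
    have h5 : ∀ s, sel n W ((Ep.cut b Y r).lev n j a) t s y =
        sel n (W \ Y) (r.lev n j a) t s y := by
      intro s
      have ht1 := (mem_Ico.mp ht).1
      ext y'
      rw [mem_sel, mem_sel, mem_sdiff]
      by_cases h6 : y' ∈ Y
      · have h7 : (Ep.cut b Y r).lev n j a y' = j := by simp only [Ep.lev, if_pos h6]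
        rw [h7]
        constructor
        · rintro ⟨_, h8, _⟩; omega
        · rintro ⟨⟨_, h8⟩, _⟩; exact absurd h6 h8
      · have h7 : (Ep.cut b Y r).lev n j a y' = r.lev n j a y' := by simp only [Ep.lev, if_neg h6]
        rw [h7]
        exact ⟨fun h => ⟨⟨h.1, h6⟩, h.2⟩, fun h => ⟨h.1.1, h.2⟩⟩
    rw [h5, h5]
  | desc el er ihl ihr =>
    intro j a W hok hW hj
    obtain ⟨h1, h2, h3⟩ := hok
    simp only [Ep.Dst]
    rw [ihl h2 inter_subset_right h1, ihr h3 inter_subset_right h1]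
    set W0 := W ∩ nd n (j + 1) (2 * a) with hW0
    set W1 := W ∩ nd n (j + 1) (2 * a + 1) with hW1
    set lv := (Ep.desc el er).lev n j a with hlv
    -- one child
    have child : ∀ (c : ℕ) (e' : Ep β) (Z : Finset ℕ), Z = W ∩ nd n (j + 1) c →
        (∀ y ∈ Z, lv y = e'.lev n (j + 1) c y) → c / 2 = a →
        br p W Z + Dcl n p (e'.lev n (j + 1) c) (j + 1) Z =
        ∑ y ∈ Z, ∑ l, p y l * ∑ t ∈ Ico j (lv y),
          log (2 * (ml p (sel n W lv t (t + 1) y) l / ml p (sel n W lv t t y) l)) := by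
      intro c e' Z hZ hlev hc
      have hb : br p W Z = ∑ y ∈ Z, ∑ l, p y l * log (2 * (ml p Z l / ml p W l)) := by
        unfold br
        rw [sum_comm]
        refine sum_congr rfl fun l _ => ?_
        rw [← sum_mul]; rfl
      unfold Dcl
      rw [hb, ← sum_add_distrib]
      refine sum_congr rfl fun y hy => ?_
      rw [← sum_add_distrib]
      refine sum_congr rfl fun l _ => ?_
      rw [← mul_add]
      refine congrArg (p y l * ·) ?_
      have hyc : anc n (j + 1) y = c := by rw [hZ] at hy; exact mem_nd.mp (mem_inter.mp hy).2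
      have hl1 : j + 1 ≤ lv y := by rw [hlev y hy]; exact Ep.le_lev n e' _ _ _
      rw [sum_eq_sum_Ico_succ_bot (by omega : j < lv y)]
      have hall : ∀ y', j < lv y' := by
        intro y'
        rw [hlv]
        simp only [Ep.lev]
        split_ifs
        · exact Ep.le_lev n el _ _ _
        · exact Ep.le_lev n er _ _ _
      have e1 : sel n W lv j (j + 1) y = Z := by
        unfold sel
        rw [hZ]
        ext y'
        simp only [mem_filter, mem_inter, mem_nd, hyc, hall, true_and]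
      have e2 : sel n W lv j j y = W := by
        unfold sel
        ext y'
        simp only [mem_filter, hall, true_and, and_iff_left_iff_imp]
        intro hy'
        rw [mem_nd.mp (hW hy')]
        rw [← anc_succ_div h1 y, hyc, hc]
      rw [e1, e2, hlev y hy]
      congr 1
      refine sum_congr rfl fun t ht => ?_
      have ht1 := (mem_Ico.mp ht).1
      have h5 : ∀ s, j + 1 ≤ s → sel n W lv t s y = sel n Z (e'.lev n (j + 1) c) t s y := by
        intro s hs
        unfold sel
        ext y'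
        simp only [mem_filter]
        constructor
        · rintro ⟨g1, g2, g3⟩
          have g4 : y' ∈ Z := by
            rw [hZ, mem_inter, mem_nd]
            exact ⟨g1, (anc_of_le hs g3).trans hyc⟩
          rw [hlev y' g4] at g2
          exact ⟨g4, g2, g3⟩
        · rintro ⟨g1, g2, g3⟩
          rw [← hlev y' g1] at g2
          rw [hZ] at g1
          exact ⟨(mem_inter.mp g1).1, g2, g3⟩
      rw [h5 _ (by omega), h5 _ ht1]
    have c0 := child (2 * a) el W0 hW0 (fun y hy => by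
      have := mem_nd.mp (mem_inter.mp hy).2
      rw [hlv]; simp only [Ep.lev, if_pos this]) (by omega)
    have c1 := child (2 * a + 1) er W1 hW1 (fun y hy => by
      have := mem_nd.mp (mem_inter.mp hy).2
      rw [hlv]; simp only [Ep.lev, this]; rw [if_neg (by omega)]) (by omega)
    have hsum : Dcl n p lv j W = (∑ y ∈ W0, ∑ l, p y l * ∑ t ∈ Ico j (lv y),
          log (2 * (ml p (sel n W lv t (t + 1) y) l / ml p (sel n W lv t t y) l))) +
        ∑ y ∈ W1, ∑ l, p y l * ∑ t ∈ Ico j (lv y),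
          log (2 * (ml p (sel n W lv t (t + 1) y) l / ml p (sel n W lv t t y) l)) := by
      unfold Dcl
      rw [← sum_union nd_disj]
      exact sum_congr (nd_split h1 hW).symm fun _ _ => rfl
    rw [hsum, ← c0, ← c1]
    ring

end Vale.Agent.P091.T.H957
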