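import Vale.Agent.P091.T.H957.PX
import Vale.Agent.P091.T.Props

/-!
# P091, row HULL from T5 (b) (helper957)

`T5Bq q` : T5 (b) with the error `D / l ^ q`;  `p_hull : T5Bq 12 → P_HULL`.
-/

set_option autoImplicit false

open Finset Real
open Vale.Agent.P091.Spec (nd anc av)
open Vale.Agent.P065.Ent

noncomputable section

namespace Vale.Agent.P091.T.H957

open Vale.Agent.P091.T

/-- **T5 (b)** with the error `D / l ^ q` -/
def T5Bq (q : ℕ) : Prop := ∀ c : ℝ, 0 < c → ∃ D0 : ℝ,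
  ∀ (D : ℝ) (n : ℕ) (p : ℕ → ℝ) (J : List (Un n (bb D))) (j a t : ℕ) (Z : Finset ℕ),
    D0 ≤ D → j + t ≤ n → a < 2 ^ j → Z ⊆ nd n j a → (∀ i, 0 ≤ p i) → 0 < ∑ i ∈ Z, p i →
    J.length ≤ qm D → (∀ k ∈ J, k.Ok (ep c D) D Z) →
    (∑ i ∈ Z, p i) * (F J j - F J (j + t) - D / (ll D : ℝ) ^ q) ≤
      ∑ y ∈ Z, ∑ l, lab J p y l * Real.log (2 ^ t *
        ((∑ y' ∈ Z.filter (fun y' => anc n (j + t) y' = anc n (j + t) y), lab J p y' l) /
          ∑ y' ∈ Z, lab J p y' l))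

open Filter in
lemma t5b_mono {q q' : ℕ} (h : q' ≤ q) (hT : T5Bq q) : T5Bq q' := by
  intro c hc
  obtain ⟨D1, hD1⟩ := hT c hc
  have hev : ∀ᶠ D : ℝ in atTop, D1 ≤ D ∧ 1 ≤ D ∧ (1 : ℝ) ≤ (ll D : ℝ) := by
    filter_upwards [eventually_ge_atTop D1, eventually_ge_atTop 1,
      H284.lD_tendsto.eventually_ge_atTop 1] with D h1 h2 h3
    exact ⟨h1, h2, h3⟩
  obtain ⟨D0, hD0⟩ := eventually_atTop.mp hev
  refine ⟨D0, ?_⟩
  intro D n p J j a t Z hD hjt ha hZ hp hm hlen hok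
  obtain ⟨g1, g2, g3⟩ := hD0 D hD
  refine le_trans (mul_le_mul_of_nonneg_left ?_ hm.le)
    (hD1 D n p J j a t Z g1 hjt ha hZ hp hm hlen hok)
  have h1 : D / (ll D : ℝ) ^ q ≤ D / (ll D : ℝ) ^ q' :=
    div_le_div_of_nonneg_left (by linarith) (by positivity) (pow_le_pow_right₀ g3 h)
  linarith

lemma t5b_of (h : T5Bq 10) : T5B := h

lemma F_bot {n b : ℕ} {J : List (Un n b)} (hJ : IsProb (lawR J)) : F J n ≤ b * log 2 := by
  unfold F
  have h := H_le_log hJ (rd n b n) univ (fun _ => mem_univ _) (by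
    rw [card_univ, ZMod.card]; positivity)
  rw [card_univ, ZMod.card] at h
  have h1 : ((2 ^ (n + b - n) : ℕ) : ℝ) = 2 ^ b := by
    rw [Nat.add_sub_cancel_left]; push_cast; rfl
  refine h.trans (le_of_eq ?_)
  rw [h1, log_pow]

open Filter in
/-- **row HULL** -/
theorem p_hull (hT : T5Bq 12) : P_HULL := by
  intro c hc
  obtain ⟨D1, hD1⟩ := hT c hc
  have hev : ∀ᶠ D : ℝ in atTop, D1 ≤ D ∧ 1 ≤ D ∧ 1 ≤ Real.log D ∧ (2 : ℝ) ≤ (ll D : ℝ) ∧
      1 * ep c D ≤ ((ll D : ℝ) ^ 16)⁻¹ ∧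
      24 * ((ll D : ℝ) ^ 10 * Real.log D ^ 1) ≤ D ^ (1 : ℝ) := by
    filter_upwards [eventually_ge_atTop D1, eventually_ge_atTop 1,
      Real.tendsto_log_atTop.eventually_ge_atTop 1,
      H284.lD_tendsto.eventually_ge_atTop 2, H284.ev_ep 16 1 c hc,
      H284.ev_l_log_pow 10 1 24 1 one_pos] with D h1 h2 h3 h4 h5 h6
    exact ⟨h1, h2, h3, h4, h5, h6⟩
  obtain ⟨D0, hD0⟩ := eventually_atTop.mp hev
  refine ⟨D0, ?_⟩
  intro D n p J j a Y hD hj ha hY hp hm hlen hok
  obtain ⟨g1, g2, g3, g4, g5, g6⟩ := hD0 D hD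
  rw [one_mul] at g5
  rw [pow_one, rpow_one] at g6
  set l : ℝ := (ll D : ℝ) with hl
  have hl0 : 0 < l := by linarith
  have hρ : ∀ k ∈ J, IsProb k.ρ := fun k hk => (hok k hk).ρ1
  have hlR := lawR_isProb J fun k hk => (hok k hk).P1
  have hlen' : (J.length : ℝ) ≤ l ^ 4 := by
    have h : J.length ≤ ll D ^ 4 := hlen
    have h' : (J.length : ℝ) ≤ ((ll D ^ 4 : ℕ) : ℝ) := by exact_mod_cast h
    rw [Nat.cast_pow] at h'
    exact h'
  set m := ∑ i ∈ Y, p i with hmd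
  have h1 := hD1 D n p J j a (n - j) Y g1 (by omega) ha hY hp hm hlen hok
  have e1 : j + (n - j) = n := by omega
  rw [e1] at h1
  -- the right side is `Phi`
  have h2 : ∑ y ∈ Y, ∑ l, lab J p y l * Real.log (2 ^ (n - j) *
        ((∑ y' ∈ Y.filter (fun y' => anc n n y' = anc n n y), lab J p y' l) /
          ∑ y' ∈ Y, lab J p y' l)) = Phi (2 ^ (n - j)) (lab J p) Y := by
    unfold Phi ml
    refine sum_congr rfl fun y hy => sum_congr rfl fun l _ => ?_
    have h3 : Y.filter (fun y' => anc n n y' = anc n n y) = {y} := by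
      ext y'
      simp only [mem_filter, mem_singleton, anc, Nat.sub_self, pow_zero, Nat.div_one]
      exact ⟨fun h => h.2, fun h => ⟨h ▸ hy, h⟩⟩
    rw [h3, sum_singleton]
    congr 2
    ring
  rw [h2] at h1
  have h3 := Phi_lab_le (J := J) (p := p) hp (W := Y) (V := 2 ^ (n - j)) (by positivity) hok
  have h4 := ms_KL hp hY
  rw [ms_cut hY] at h4
  have h5 : KK (2 ^ (n - j)) p Y = m * KL n j a (cut p Y) := by
    have h6 : (2 : ℝ) ^ n ≠ 0 := by positivity
    have h7 : m / 2 ^ n * KL n j a (cut p Y) = m * KL n j a (cut p Y) / 2 ^ n := by ring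
    rw [h7] at h4
    have := (div_left_inj' h6).mp h4
    exact this.symm
  have h6 : F J j - F J n - D / l ^ 12 ≤ KL n j a (cut p Y) + J.length * (ep c D * D) := by
    have h7 : m * (F J j - F J n - D / l ^ 12) ≤
        m * (KL n j a (cut p Y) + J.length * (ep c D * D)) := by
      rw [mul_add, ← h5]; linarith
    exact le_of_mul_le_mul_left h7 hm
  have h7 := F_bot hlR
  -- numbers
  have hep0 : 0 ≤ ep c D := by
    unfold ep; exact rpow_nonneg (by linarith) _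
  have hE1 : (J.length : ℝ) * (ep c D * D) ≤ D / (4 * l ^ 10) := by
    have h8 : (J.length : ℝ) * (ep c D * D) ≤ l ^ 4 * ((l ^ 16)⁻¹ * D) := by
      refine mul_le_mul hlen' (mul_le_mul_of_nonneg_right g5 (by linarith)) (by positivity)
        (by positivity)
    refine h8.trans ?_
    have h9 : l ^ 4 * ((l ^ 16)⁻¹ * D) = D / (l ^ 2 * l ^ 10) := by field_simp
    rw [h9]
    refine div_le_div_of_nonneg_left (by linarith) (by positivity) ?_
    refine mul_le_mul_of_nonneg_right ?_ (by positivity)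
    nlinarith
  have hE2 : D / l ^ 12 ≤ D / (4 * l ^ 10) := by
    refine div_le_div_of_nonneg_left (by linarith) (by positivity) ?_
    have h9 : l ^ 12 = l ^ 2 * l ^ 10 := by ring
    rw [h9]
    refine mul_le_mul_of_nonneg_right ?_ (by positivity)
    nlinarith
  have hE3 : (bb D : ℝ) * Real.log 2 ≤ D / (4 * l ^ 10) := by
    have h8 : (bb D : ℝ) ≤ 4 * logb 2 D + 1 := by
      unfold bb
      exact (Nat.ceil_lt_add_one (mul_nonneg (by norm_num)
        (logb_nonneg (by norm_num) g2))).le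
    have hl2 : 0 < Real.log 2 := Real.log_pos (by norm_num)
    have hl2' : Real.log 2 ≤ 1 := by
      have := Real.log_le_sub_one_of_pos (show (0 : ℝ) < 2 by norm_num); linarith
    have h9 : (bb D : ℝ) * Real.log 2 ≤ (4 * logb 2 D + 1) * Real.log 2 :=
      mul_le_mul_of_nonneg_right h8 hl2.le
    have h10 : (4 * logb 2 D + 1) * Real.log 2 = 4 * Real.log D + Real.log 2 := by
      unfold logb; field_simp
    have h11 : (bb D : ℝ) * Real.log 2 ≤ 6 * Real.log D := by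
      rw [h10] at h9; linarith
    rw [le_div_iff₀ (by positivity)]
    have h12 : (bb D : ℝ) * Real.log 2 * (4 * l ^ 10) ≤ 6 * Real.log D * (4 * l ^ 10) :=
      mul_le_mul_of_nonneg_right h11 (by positivity)
    linarith
  have hsum : D / (4 * l ^ 10) + D / (4 * l ^ 10) + D / (4 * l ^ 10) ≤ D / l ^ 10 := by
    have h8 : D / (4 * l ^ 10) = (D / l ^ 10) / 4 := by
      rw [mul_comm, ← div_div]
    rw [h8]
    have : 0 ≤ D / l ^ 10 := by positivity
    linarith
  linarith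

end Vale.Agent.P091.T.H957
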