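import Vale.Agent.P091.T.H957.Exit
import Vale.Agent.P091.T.H957.T5B

/-!
# P091, T block: the value information of a list (helper957)

`Phi_lab_le` : `Phi V (lab J p) W ≤ KK V p W + mass · |J| · ε D` (the coordinates of the values are
conditionally independent given `y`, every unit satisfies `I(y; y + t) ≤ ε D`).
-/

set_option autoImplicit false

open Finset Real
open Vale.Agent.P091.Spec (nd anc)
open Vale.Agent.P065.Ent

noncomputable section

namespace Vale.Agent.P091.T.H957

open Vale.Agent.P091.T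

/-! ### product laws -/

lemma prod_marg {m : ℕ} {G : Type*} [Fintype G] (g : Fin m → G → ℝ)
    (hg : ∀ i, ∑ x, g i x = 1) (i : Fin m) (f : G → ℝ) :
    ∑ l : Fin m → G, (∏ j, g j (l j)) * f (l i) = ∑ x, g i x * f x := by
  classical
  have h1 : ∀ l : Fin m → G, (∏ j, g j (l j)) * f (l i) =
      ∏ j, (g j (l j) * if j = i then f (l j) else 1) := by
    intro l
    rw [prod_mul_distrib, prod_ite_eq' univ i (fun j => f (l j))]
    simp
  rw [sum_congr rfl fun l _ => h1 l]
  have h2 := Finset.prod_univ_sum (fun _ : Fin m => (univ : Finset G))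
    (fun j x => g j x * if j = i then f x else 1)
  rw [Fintype.piFinset_univ] at h2
  rw [← h2, prod_eq_single i]
  · exact sum_congr rfl fun x _ => by rw [if_pos rfl]
  · intro j _ hj
    have h3 : ∑ x, (g j x * if j = i then f x else 1) = ∑ x, g j x :=
      sum_congr rfl fun x _ => by rw [if_neg hj, mul_one]
    rw [h3, hg j]
  · intro h; exact absurd (mem_univ i) h

lemma prod_tot {m : ℕ} {G : Type*} [Fintype G] (g : Fin m → G → ℝ)
    (hg : ∀ i, ∑ x, g i x = 1) : ∑ l : Fin m → G, ∏ j, g j (l j) = 1 := by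
  classical
  have h2 := Finset.prod_univ_sum (fun _ : Fin m => (univ : Finset G)) (fun j x => g j x)
  rw [Fintype.piFinset_univ] at h2
  rw [← h2]
  exact prod_eq_one fun j _ => hg j

section lab
variable {n b : ℕ} {J : List (Un n b)} {p : ℕ → ℝ}

lemma lab_nonneg (hJ : ∀ k ∈ J, IsProb k.ρ) (hp : ∀ i, 0 ≤ p i) (y : ℕ)
    (l : Fin J.length → ZMod (2 ^ (n + b))) : 0 ≤ lab J p y l :=
  mul_nonneg (hp y) (prod_nonneg fun i _ => (hJ _ (List.get_mem J i)).nonneg _)

lemma shift_sum {G : Type*} [Fintype G] [AddCommGroup G] (ρ : G → ℝ) (y : G) :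
    ∑ x, ρ (x - y) = ∑ t, ρ t := Equiv.sum_comp (Equiv.subRight y) ρ

lemma lab_marg (hJ : ∀ k ∈ J, IsProb k.ρ) (y : ℕ) (i : Fin J.length)
    (f : ZMod (2 ^ (n + b)) → ℝ) :
    ∑ l, lab J p y l * f (l i) = p y * ∑ x, (J.get i).ρ (x - (y : ZMod (2 ^ (n + b)))) * f x := by
  unfold lab
  have := prod_marg (fun i x => (J.get i).ρ (x - (y : ZMod (2 ^ (n + b)))))
    (fun i => by rw [shift_sum]; exact (hJ _ (List.get_mem J i)).sum) i f
  rw [← this, mul_sum]
  exact sum_congr rfl fun l _ => by ring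

lemma lab_sum (hJ : ∀ k ∈ J, IsProb k.ρ) (y : ℕ) : ∑ l, lab J p y l = p y := by
  unfold lab
  rw [← mul_sum, prod_tot (fun i x => (J.get i).ρ (x - (y : ZMod (2 ^ (n + b)))))
    (fun i => by rw [shift_sum]; exact (hJ _ (List.get_mem J i)).sum), mul_one]

lemma mm_lab (hJ : ∀ k ∈ J, IsProb k.ρ) (W : Finset ℕ) : mm (lab J p) W = ∑ y ∈ W, p y := by
  unfold mm
  exact sum_congr rfl fun y _ => lab_sum hJ y

end lab

/-! ### one unit -/

/-- the law on the group of the restriction of `p` to `W` -/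
def lamW {n b : ℕ} (p : ℕ → ℝ) (W : Finset ℕ) (z : ZMod (2 ^ (n + b))) : ℝ :=
  (∑ y ∈ W, if (y : ZMod (2 ^ (n + b))) = z then p y else 0) / ∑ y ∈ W, p y

section one
variable {n b : ℕ} {p : ℕ → ℝ} {W : Finset ℕ}

lemma lamW_fib (hm : 0 < ∑ y ∈ W, p y) (h : ZMod (2 ^ (n + b)) → ℝ) :
    ∑ y ∈ W, p y * h (y : ZMod (2 ^ (n + b))) = (∑ y ∈ W, p y) * ∑ z, lamW p W z * h z := by
  unfold lamW
  rw [mul_sum]
  have h1 : ∀ z : ZMod (2 ^ (n + b)), (∑ y ∈ W, p y) *
      ((∑ y ∈ W, if (y : ZMod (2 ^ (n + b))) = z then p y else 0) / (∑ y ∈ W, p y) * h z) =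
      ∑ y ∈ W, if (y : ZMod (2 ^ (n + b))) = z then p y * h z else 0 := by
    intro z
    rw [← mul_assoc, mul_div_cancel₀ _ hm.ne', sum_mul]
    exact sum_congr rfl fun y _ => by split_ifs <;> ring
  rw [sum_congr rfl fun z _ => h1 z, sum_comm]
  refine sum_congr rfl fun y _ => ?_
  rw [sum_ite_eq]
  simp

lemma lamW_isProb (hp : ∀ i, 0 ≤ p i) (hm : 0 < ∑ y ∈ W, p y) :
    IsProb (lamW (n := n) (b := b) p W) := by
  refine ⟨fun z => div_nonneg (sum_nonneg fun y _ => ?_) hm.le, ?_⟩
  · split_ifs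
    · exact hp y
    · exact le_rfl
  · have := lamW_fib (n := n) (b := b) hm (fun _ => 1)
    simp only [mul_one] at this
    have h2 : (∑ y ∈ W, p y) * 1 = (∑ y ∈ W, p y) * ∑ z, lamW (n := n) (b := b) p W z := by
      rw [mul_one]; exact this
    exact (mul_left_cancel₀ hm.ne' h2).symm

lemma prw_isProb {X X' : Type*} [Fintype X] [Fintype X'] {μ : X → ℝ} {ν : X' → ℝ}
    (hμ : IsProb μ) (hν : IsProb ν) : IsProb (prw μ ν) := by
  refine ⟨fun w => mul_nonneg (hμ.nonneg _) (hν.nonneg _), ?_⟩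
  unfold prw
  rw [Fintype.sum_prod_type]
  simp only [← mul_sum, hν.sum, mul_one]
  exact hμ.sum

/-- the law of `y + t` -/
lemma Pr_add {lam ρ : ZMod (2 ^ (n + b)) → ℝ} (s : ZMod (2 ^ (n + b))) :
    Pr (prw lam ρ) (fun w => w.1 + w.2) s = ∑ z, lam z * ρ (s - z) := by
  classical
  unfold Pr prw
  rw [Fintype.sum_prod_type]
  refine sum_congr rfl fun z _ => ?_
  rw [sum_eq_single (s - z)]
  · rw [if_pos (show z + (s - z) = s by abel)]
  · intro t _ ht
    rw [if_neg]
    intro h
    have h' : z + t = s := h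
    exact ht (by rw [← h']; abel)
  · intro h; exact absurd (mem_univ _) h

/-- the information of one unit as a sum -/
lemma info_one {lam ρ : ZMod (2 ^ (n + b)) → ℝ} (h1 : IsProb lam) (h2 : IsProb ρ) :
    ∑ z, lam z * ∑ x, ρ (x - z) * log (ρ (x - z) / ∑ z', lam z' * ρ (x - z')) =
      I (prw lam ρ) (fun w => w.1) (fun w => w.1 + w.2) (fun _ => ()) := by
  classical
  have hμ := prw_isProb h1 h2
  rw [I_symm]
  unfold I
  rw [Hc_const hμ, Hc_eq_sum hμ]
  unfold H
  rw [← sum_sub_distrib, Fintype.sum_prod_type]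
  refine sum_congr rfl fun z _ => ?_
  have e1 : ∑ x, ρ (x - z) * log (ρ (x - z) / ∑ z', lam z' * ρ (x - z')) =
      ∑ t, ρ t * log (ρ t / ∑ z', lam z' * ρ (z + t - z')) := by
    rw [← Equiv.sum_comp (Equiv.addLeft z)
      (fun x => ρ (x - z) * log (ρ (x - z) / ∑ z', lam z' * ρ (x - z')))]
    refine sum_congr rfl fun t _ => ?_
    simp only [Equiv.coe_addLeft, add_sub_cancel_left]
  rw [e1, mul_sum]
  refine sum_congr rfl fun t _ => ?_
  rcases (h1.nonneg z).eq_or_lt with hz | hz
  · unfold prw; simp only [← hz]; ring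
  rcases (h2.nonneg t).eq_or_lt with ht | ht
  · unfold prw; simp only [← ht]; ring
  have hpos : 0 < prw lam ρ (z, t) := mul_pos hz ht
  have p1 := Pr_pos hμ (fun w : ZMod (2 ^ (n + b)) × ZMod (2 ^ (n + b)) => w.1 + w.2) hpos
  have e2 : Pr (prw lam ρ) (fun w => w.1 + w.2) (z + t) = ∑ z', lam z' * ρ (z + t - z') :=
    Pr_add (z + t)
  have e3 : Pr (prw lam ρ) (fun w => (w.1 + w.2, (w.1, ()))) (z + t, (z, ())) = lam z * ρ t := by
    unfold Pr
    rw [sum_eq_single (z, t)]
    · rw [if_pos rfl]; rfl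
    · rintro ⟨z', t'⟩ _ hne
      rw [if_neg]
      intro h
      simp only [Prod.mk.injEq, and_true] at h
      apply hne
      obtain ⟨h3, h4⟩ := h
      subst h4
      simpa using h3
    · intro h; exact absurd (mem_univ _) h
  have e4 : Pr (prw lam ρ) (fun w => (w.1, ())) (z, ()) = lam z := by
    unfold Pr prw
    rw [Fintype.sum_prod_type, sum_eq_single z]
    · simp only [if_true]
      rw [← mul_sum, h2.sum, mul_one]
    · intro z' _ hz'
      refine sum_eq_zero fun t' _ => ?_
      rw [if_neg]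
      intro h
      simp only [Prod.mk.injEq, and_true] at h
      exact hz' h
    · intro h; exact absurd (mem_univ _) h
  have e5 : prw lam ρ (z, t) = lam z * ρ t := rfl
  simp only [e2, e3, e4]
  rw [e5, mul_div_cancel_left₀ _ hz.ne', log_div ht.ne' (by rw [← e2]; exact p1.ne')]
  ring

end one

/-! ### the list -/

theorem Phi_lab_le {n b : ℕ} {J : List (Un n b)} {p : ℕ → ℝ} (hp : ∀ i, 0 ≤ p i)
    {W : Finset ℕ} {ε D V : ℝ} (hV : 0 < V) (hJ : ∀ k ∈ J, k.Ok ε D W) :
    Phi V (lab J p) W ≤ KK V p W + (∑ y ∈ W, p y) * (J.length * (ε * D)) := by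
  classical
  have hρ : ∀ k ∈ J, IsProb k.ρ := fun k hk => (hJ k hk).ρ1
  rcases (sum_nonneg fun y (_ : y ∈ W) => hp y).eq_or_lt with h0 | hm
  · have hz := (sum_eq_zero_iff_of_nonneg fun y _ => hp y).mp h0.symm
    rw [← h0, zero_mul, add_zero]
    unfold Phi KK
    rw [sum_eq_zero, sum_eq_zero]
    · intro y hy; rw [hz y hy, zero_mul]
    · intro y hy
      refine sum_eq_zero fun l _ => ?_
      unfold lab
      rw [hz y hy]; ring
  set m := ∑ y ∈ W, p y with hmd
  -- marginals
  set mg : Fin J.length → ZMod (2 ^ (n + b)) → ℝ := fun i x =>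
    ∑ z, lamW p W z * (J.get i).ρ (x - z) with hmg
  have hlam := lamW_isProb (n := n) (b := b) hp hm
  have hmg0 : ∀ i x, 0 ≤ mg i x := fun i x =>
    sum_nonneg fun z _ => mul_nonneg (hlam.nonneg z) ((hρ _ (List.get_mem J i)).nonneg _)
  have hmg1 : ∀ i, ∑ x, mg i x = 1 := by
    intro i
    simp only [hmg]
    rw [sum_comm]
    have : ∀ z, ∑ x, lamW p W z * (J.get i).ρ (x - z) = lamW p W z := by
      intro z
      rw [← mul_sum, shift_sum, (hρ _ (List.get_mem J i)).sum, mul_one]
    rw [sum_congr rfl fun z _ => this z]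
    exact hlam.sum
  have hmgy : ∀ i x, mg i x = (∑ y ∈ W, p y * (J.get i).ρ (x - (y : ZMod (2 ^ (n + b))))) / m := by
    intro i x
    rw [lamW_fib hm (fun z => (J.get i).ρ (x - z)), mul_comm, mul_div_assoc, div_self hm.ne',
      mul_one]
  have hmgpos : ∀ y ∈ W, ∀ l, 0 < lab J p y l → ∀ i, 0 < mg i (l i) := by
    intro y hy l hl i
    rw [hmgy]
    have h1 : 0 < p y := by
      rcases (hp y).eq_or_lt with h | h
      · unfold lab at hl; rw [← h, zero_mul] at hl; exact absurd hl (lt_irrefl _)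
      · exact h
    have h2 : 0 < (J.get i).ρ (l i - (y : ZMod (2 ^ (n + b)))) := by
      rcases ((hρ _ (List.get_mem J i)).nonneg (l i - (y : ZMod (2 ^ (n + b))))).eq_or_lt with h | h
      · unfold lab at hl
        rw [prod_eq_zero (mem_univ i) h.symm, mul_zero] at hl
        exact absurd hl (lt_irrefl _)
      · exact h
    refine div_pos (sum_pos' (fun y' _ => mul_nonneg (hp y') ((hρ _ (List.get_mem J i)).nonneg _))
      ⟨y, hy, mul_pos h1 h2⟩) hm
  -- the Gibbs inequality
  have hg := log_sum univ (fun l => ml (lab J p) W l) (fun l => m * ∏ i, mg i (l i))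
    (fun l _ => ml_nonneg (lab_nonneg hρ hp) W l)
    (fun l _ => mul_nonneg hm.le (prod_nonneg fun i _ => hmg0 i _))
    (fun l _ h => by
      refine mul_pos hm (prod_pos fun i _ => ?_)
      obtain ⟨y, hy, hy0⟩ := exists_ne_zero_of_sum_ne_zero h.ne'
      exact hmgpos y hy l (lt_of_le_of_ne (lab_nonneg hρ hp y l) (Ne.symm hy0)) i)
  rw [← mm_eq, mm_lab hρ, ← mul_sum, prod_tot mg hmg1, mul_one, ← hmd, div_self hm.ne', log_one,
    mul_zero] at hg
  rw [show (∑ l, ml (lab J p) W l * log ((m * ∏ i, mg i (l i)) / ml (lab J p) W l)) =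
      ∑ y ∈ W, ∑ l, lab J p y l * log ((m * ∏ i, mg i (l i)) / ml (lab J p) W l) by
    rw [sum_comm]
    refine sum_congr rfl fun l _ => ?_
    rw [← sum_mul]; rfl] at hg
  -- the decomposition
  have hdec : Phi V (lab J p) W = KK V p W +
      (∑ y ∈ W, ∑ l, lab J p y l * log ((m * ∏ i, mg i (l i)) / ml (lab J p) W l)) +
      ∑ y ∈ W, ∑ l, lab J p y l *
        ∑ i, log ((J.get i).ρ (l i - (y : ZMod (2 ^ (n + b)))) / mg i (l i)) := by
    have hKK : KK V p W = ∑ y ∈ W, ∑ l, lab J p y l * log (p y * V / m) := by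
      unfold KK
      refine sum_congr rfl fun y _ => ?_
      rw [← sum_mul, lab_sum hρ]
    rw [hKK, ← sum_add_distrib, ← sum_add_distrib]
    unfold Phi
    refine sum_congr rfl fun y hy => ?_
    rw [← sum_add_distrib, ← sum_add_distrib]
    refine sum_congr rfl fun l _ => ?_
    rcases (lab_nonneg hρ hp y l).eq_or_lt with h | h
    · rw [← h]; ring
    · have h1 : 0 < p y := by
        rcases (hp y).eq_or_lt with h' | h'
        · unfold lab at h; rw [← h', zero_mul] at h; exact absurd h (lt_irrefl _)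
        · exact h'
      have h2 : ∀ i, 0 < (J.get i).ρ (l i - (y : ZMod (2 ^ (n + b)))) := by
        intro i
        rcases ((hρ _ (List.get_mem J i)).nonneg
          (l i - (y : ZMod (2 ^ (n + b))))).eq_or_lt with h' | h'
        · unfold lab at h
          rw [prod_eq_zero (mem_univ i) h'.symm, mul_zero] at h
          exact absurd h (lt_irrefl _)
        · exact h'
      have h3 : ∀ i, 0 < mg i (l i) := hmgpos y hy l h
      have h4 : 0 < ml (lab J p) W l := h.trans_le (le_ml (lab_nonneg hρ hp) hy l)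
      have h5 : 0 < ∏ i, mg i (l i) := prod_pos fun i _ => h3 i
      have h6 : 0 < ∏ i, (J.get i).ρ (l i - (y : ZMod (2 ^ (n + b)))) := prod_pos fun i _ => h2 i
      rw [← mul_add, ← mul_add]
      congr 1
      have e1 : ∑ i, log ((J.get i).ρ (l i - (y : ZMod (2 ^ (n + b)))) / mg i (l i)) =
          log (∏ i, (J.get i).ρ (l i - (y : ZMod (2 ^ (n + b))))) - log (∏ i, mg i (l i)) := by
        rw [log_prod (fun i _ => (h2 i).ne'), log_prod (fun i _ => (h3 i).ne'), ← sum_sub_distrib]
        exact sum_congr rfl fun i _ => log_div (h2 i).ne' (h3 i).ne'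
      rw [e1]
      have hl : lab J p y l = p y * ∏ i, (J.get i).ρ (l i - (y : ZMod (2 ^ (n + b)))) := rfl
      have q1 : log (lab J p y l * V / ml (lab J p) W l) = log (p y) +
          log (∏ i, (J.get i).ρ (l i - (y : ZMod (2 ^ (n + b))))) + log V -
          log (ml (lab J p) W l) := by
        rw [log_div (by positivity) h4.ne', log_mul h.ne' hV.ne', hl, log_mul h1.ne' h6.ne']
      have q2 : log (p y * V / m) = log (p y) + log V - log m := by
        rw [log_div (by positivity) hm.ne', log_mul h1.ne' hV.ne']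
      have q3 : log ((m * ∏ i, mg i (l i)) / ml (lab J p) W l) = log m + log (∏ i, mg i (l i)) -
          log (ml (lab J p) W l) := by
        rw [log_div (by positivity) h4.ne', log_mul hm.ne' h5.ne']
      rw [q1, q2, q3]
      ring
  rw [hdec]
  -- the sum over the units
  have hunits : ∑ y ∈ W, ∑ l, lab J p y l *
        ∑ i, log ((J.get i).ρ (l i - (y : ZMod (2 ^ (n + b)))) / mg i (l i)) ≤
      m * (J.length * (ε * D)) := by
    have e1 : ∑ y ∈ W, ∑ l, lab J p y l *
        ∑ i, log ((J.get i).ρ (l i - (y : ZMod (2 ^ (n + b)))) / mg i (l i)) =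
        ∑ i, m * ∑ z, lamW p W z * ∑ x, (J.get i).ρ (x - z) *
          log ((J.get i).ρ (x - z) / mg i x) := by
      simp only [mul_sum]
      rw [show (∑ y ∈ W, ∑ l, ∑ i, lab J p y l *
          log ((J.get i).ρ (l i - (y : ZMod (2 ^ (n + b)))) / mg i (l i))) =
          ∑ i, ∑ y ∈ W, ∑ l, lab J p y l *
          log ((J.get i).ρ (l i - (y : ZMod (2 ^ (n + b)))) / mg i (l i)) by
        have e0 : ∀ y, ∑ l, ∑ i, lab J p y l *
            log ((J.get i).ρ (l i - (y : ZMod (2 ^ (n + b)))) / mg i (l i)) =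
            ∑ i, ∑ l, lab J p y l *
            log ((J.get i).ρ (l i - (y : ZMod (2 ^ (n + b)))) / mg i (l i)) := fun y => sum_comm
        rw [sum_congr rfl fun y _ => e0 y]
        exact sum_comm]
      refine sum_congr rfl fun i _ => ?_
      have e2 : ∀ y, ∑ l, lab J p y l *
          log ((J.get i).ρ (l i - (y : ZMod (2 ^ (n + b)))) / mg i (l i)) =
          p y * (fun z => ∑ x, (J.get i).ρ (x - z) * log ((J.get i).ρ (x - z) / mg i x))
            (y : ZMod (2 ^ (n + b))) := fun y =>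
        lab_marg hρ y i (fun x => log ((J.get i).ρ (x - (y : ZMod (2 ^ (n + b)))) / mg i x))
      rw [sum_congr rfl fun y _ => e2 y, lamW_fib hm (fun z => ∑ x, (J.get i).ρ (x - z) *
        log ((J.get i).ρ (x - z) / mg i x))]
      simp only [mul_sum, ← hmd]
    rw [e1]
    have e3 : ∀ i ∈ (univ : Finset (Fin J.length)), m * ∑ z, lamW p W z * ∑ x, (J.get i).ρ (x - z) *
          log ((J.get i).ρ (x - z) / mg i x) ≤ m * (ε * D) := by
      intro i _
      refine mul_le_mul_of_nonneg_left ?_ hm.le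
      have hok := hJ _ (List.get_mem J i)
      have h1 := info_one (n := n) (b := b) hlam hok.ρ1
      have h2 := hok.info (lamW p W) hlam (fun z hz => by
        unfold lamW at hz
        have h3 : (∑ y ∈ W, if (y : ZMod (2 ^ (n + b))) = z then p y else 0) ≠ 0 := by
          intro h; rw [h, zero_div] at hz; exact hz rfl
        obtain ⟨y, hy, hy0⟩ := exists_ne_zero_of_sum_ne_zero h3
        refine ⟨y, hy, ?_⟩
        by_contra hne
        rw [if_neg hne] at hy0
        exact hy0 rfl)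
      rw [← h1] at h2
      exact h2
    refine (sum_le_sum e3).trans ?_
    · rw [sum_const, card_univ, Fintype.card_fin, nsmul_eq_mul]
      exact le_of_eq (by ring)
  linarith

end Vale.Agent.P091.T.H957
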