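import Vale.Agent.P091.T.H957.ExitKF
import Vale.Agent.P091.T.H957.Info
import Vale.Agent.P091.T.H17.BDefs
import Vale.Agent.P091.T.H284.AccD

/-!
# P091, heart, row BELL: the exit inequality (X) of one epoch (helper957)

`p_X : T5B → P_X`.
-/

set_option autoImplicit false

open Finset Real
open Vale.Agent.P091.Spec (nd anc av)
open Vale.Agent.P065.Ent

noncomputable section

namespace Vale.Agent.P091.T.H957

open Vale.Agent.P091.T

/-! ### exit sums -/

section exsum
variable {β : Type} {n : ℕ}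

/-- comparison of exit sums; the exit sets are contained in the exit nodes -/
lemma exsum_mono {g h : ℕ → ℕ → Finset ℕ → Finset ℕ → Option β → ℝ}
    (e : Ep β) : ∀ {j a : ℕ} {W : Finset ℕ}, e.Ok n j a W → W ⊆ nd n j a → j ≤ n → a < 2 ^ j →
    (∀ j' a' Z Y k, j' ≤ n → a' < 2 ^ j' → Z ⊆ nd n j' a' → Z ⊆ W → Y ⊆ Z →
      g j' a' Z Y k ≤ h j' a' Z Y k) →
    e.exsum n g j a W ≤ e.exsum n h j a W := by
  induction e with
  | stop =>
    intro j a W _ hW hj ha H
    exact H j a W W none hj ha hW Subset.rfl Subset.rfl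
  | cut b Y r ih =>
    intro j a W hok hW hj ha H
    simp only [Ep.exsum]
    exact add_le_add (H j a W Y (some b) hj ha hW Subset.rfl hok.1)
      (ih hok.2 (sdiff_subset.trans hW) hj ha fun j' a' Z Y k h1 h2 h3 h4 h5 =>
        H j' a' Z Y k h1 h2 h3 (h4.trans sdiff_subset) h5)
  | desc l r ihl ihr =>
    intro j a W hok hW hj ha H
    simp only [Ep.exsum]
    have hp : 2 ^ (j + 1) = 2 * 2 ^ j := pow_succ' 2 j
    exact add_le_add
      (ihl hok.2.1 inter_subset_right hok.1 (by omega) fun j' a' Z Y k h1 h2 h3 h4 h5 =>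
        H j' a' Z Y k h1 h2 h3 (h4.trans inter_subset_left) h5)
      (ihr hok.2.2 inter_subset_right hok.1 (by omega) fun j' a' Z Y k h1 h2 h3 h4 h5 =>
        H j' a' Z Y k h1 h2 h3 (h4.trans inter_subset_left) h5)

lemma exsum_add {g h : ℕ → ℕ → Finset ℕ → Finset ℕ → Option β → ℝ}
    (e : Ep β) : ∀ (j a : ℕ) (W : Finset ℕ),
    e.exsum n (fun j a Z Y k => g j a Z Y k + h j a Z Y k) j a W =
      e.exsum n g j a W + e.exsum n h j a W := by
  induction e with
  | stop => intro j a W; rfl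
  | cut b Y r ih => intro j a W; simp only [Ep.exsum]; rw [ih]; ring
  | desc l r ihl ihr => intro j a W; simp only [Ep.exsum]; rw [ihl, ihr]; ring

lemma exsum_mul (c : ℝ) {g : ℕ → ℕ → Finset ℕ → Finset ℕ → Option β → ℝ}
    (e : Ep β) : ∀ (j a : ℕ) (W : Finset ℕ),
    e.exsum n (fun j a Z Y k => c * g j a Z Y k) j a W = c * e.exsum n g j a W := by
  induction e with
  | stop => intro j a W; rfl
  | cut b Y r ih => intro j a W; simp only [Ep.exsum]; rw [ih]; ring
  | desc l r ihl ihr => intro j a W; simp only [Ep.exsum]; rw [ihl, ihr]; ring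

/-- additive functionals -/
lemma exsum_leaf (g : ℕ → ℕ → ℝ) (e : Ep β) : ∀ {j a : ℕ} {W : Finset ℕ}, e.Ok n j a W →
    W ⊆ nd n j a → j ≤ n →
    e.exsum n (fun j' _ _ Y _ => ∑ y ∈ Y, g j' y) j a W = ∑ y ∈ W, g (e.lev n j a y) y := by
  induction e with
  | stop => intro j a W _ _ _; rfl
  | cut b Y r ih =>
    intro j a W hok hW hj
    simp only [Ep.exsum]
    rw [ih hok.2 (sdiff_subset.trans hW) hj,
      ← sum_sdiff hok.1 (f := fun y => g ((Ep.cut b Y r).lev n j a y) y), add_comm]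
    refine congrArg₂ (· + ·) (sum_congr rfl fun y hy => ?_) (sum_congr rfl fun y hy => ?_)
    · simp only [Ep.lev, if_neg (mem_sdiff.mp hy).2]
    · simp only [Ep.lev, if_pos hy]
  | desc l r ihl ihr =>
    intro j a W hok hW hj
    simp only [Ep.exsum]
    rw [ihl hok.2.1 inter_subset_right hok.1, ihr hok.2.2 inter_subset_right hok.1]
    have h1 : ∑ y ∈ W, g ((Ep.desc l r).lev n j a y) y =
        ∑ y ∈ (W ∩ nd n (j + 1) (2 * a)) ∪ (W ∩ nd n (j + 1) (2 * a + 1)),
          g ((Ep.desc l r).lev n j a y) y := by rw [nd_split hok.1 hW]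
    rw [h1, sum_union nd_disj]
    refine congrArg₂ (· + ·) (sum_congr rfl fun y hy => ?_) (sum_congr rfl fun y hy => ?_)
    · have := mem_nd.mp (mem_inter.mp hy).2
      simp only [Ep.lev, if_pos this]
    · have := mem_nd.mp (mem_inter.mp hy).2
      simp only [Ep.lev, this]
      rw [if_neg (by omega)]

end exsum

/-! ### the plans of helper17 -/

section conv
variable {β : Type} {n : ℕ}

/-- the same tree -/
def conv : H17.Ep β → Ep β
  | .stop => .stop
  | .cut b Y r => .cut b Y (conv r)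
  | .desc l r => .desc (conv l) (conv r)

lemma exits_sum (g : H17.Rec β → ℝ) (E : H17.Ep β) : ∀ (j a : ℕ) (W : Finset ℕ),
    ((H17.exits n E j a W).map g).sum =
      (conv E).exsum n (fun j a Z Y k => g ⟨j, a, Z, Y, k⟩) j a W := by
  induction E with
  | stop => intro j a W; simp [H17.exits, conv, Ep.exsum]
  | cut b Y r ih => intro j a W; simp only [H17.exits, conv, Ep.exsum, List.map_cons,
      List.sum_cons]; rw [ih]
  | desc l r ihl ihr => intro j a W; simp only [H17.exits, conv, Ep.exsum, List.map_append,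
      List.sum_append]; rw [ihl, ihr]

lemma fits_ok {Stop Done : ℕ → ℕ → Finset ℕ → Prop} {Piece : ℕ → ℕ → Finset ℕ → β → Finset ℕ → Prop}
    (hbot : ∀ j a W, n ≤ j → Stop j a W) (E : H17.Ep β) : ∀ {j a : ℕ} {W : Finset ℕ},
    H17.Fits n Stop Done Piece E j a W → (conv E).Ok n j a W := by
  induction E with
  | stop => intro j a W _; trivial
  | cut b Y r ih => intro j a W h; exact ⟨h.2.2.1, ih h.2.2.2.2⟩
  | desc l r ihl ihr =>
    intro j a W h
    refine ⟨?_, ihl h.2.2.1, ihr h.2.2.2⟩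
    by_contra hc
    exact h.1 (hbot j a W (by omega))

end conv

/-! ### the entropy of the list -/

section ent
variable {n b : ℕ}

lemma F_antitone {J : List (Un n b)} (hJ : IsProb (lawR J)) {s t : ℕ} (h : s ≤ t) :
    F J t ≤ F J s := by
  unfold F
  refine H_mono hJ fun r r' e => ?_
  unfold rd at e ⊢
  rcases Nat.lt_or_ge (n + b) t with ht | ht
  · have h1 : n + b - t = 0 := by omega
    have : Subsingleton (ZMod (2 ^ (n + b - t))) := by
      rw [h1, pow_zero]; exact inferInstanceAs (Subsingleton (Fin 1))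
    exact Subsingleton.elim _ _
  · have hlt : ∀ x : ZMod (2 ^ (n + b)), x.val / 2 ^ s < 2 ^ (n + b - s) := by
      intro x
      have h2 : 2 ^ (n + b) = 2 ^ s * 2 ^ (n + b - s) := by
        rw [← pow_add]; congr 1; omega
      have h3 : x.val < 2 ^ s * 2 ^ (n + b - s) := h2 ▸ ZMod.val_lt x
      exact Nat.div_lt_of_lt_mul h3
    have h4 := (ZMod.natCast_eq_natCast_iff _ _ _).mp e
    unfold Nat.ModEq at h4
    rw [Nat.mod_eq_of_lt (hlt r), Nat.mod_eq_of_lt (hlt r')] at h4
    have h5 : ∀ x : ℕ, x / 2 ^ t = x / 2 ^ s / 2 ^ (t - s) := by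
      intro x
      rw [Nat.div_div_eq_div_mul, ← pow_add]
      congr 2; omega
    rw [h5, h5 (r' : ZMod (2 ^ (n + b))).val, h4]

lemma lawR_isProb (J : List (Un n b)) (hJ : ∀ k ∈ J, IsProb k.P) : IsProb (lawR J) := by
  classical
  induction J with
  | nil =>
    refine ⟨fun r => ?_, ?_⟩
    · unfold lawR; split_ifs <;> norm_num
    · simp [lawR]
  | cons k J ih =>
    have h1 := ih fun k' hk' => hJ k' (List.mem_cons_of_mem _ hk')
    have h2 := hJ k List.mem_cons_self
    refine ⟨fun r => sum_nonneg fun s _ => mul_nonneg (h2.nonneg s) (h1.nonneg _), ?_⟩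
    unfold lawR
    rw [sum_comm]
    have : ∀ s, ∑ r, k.P s * lawR J (r - s) = k.P s := by
      intro s
      rw [← mul_sum, shift_sum (lawR J) s, h1.sum, mul_one]
    rw [sum_congr rfl fun s _ => this s]
    exact h2.sum

lemma lawR_supp (J : List (Un n b)) {X : ℝ} (hX : 0 ≤ X)
    (hJ : ∀ k ∈ J, ((univ.filter fun r => k.P r ≠ 0).card : ℝ) ≤ X) :
    ∃ S : Finset (ZMod (2 ^ (n + b))), (S.card : ℝ) ≤ X ^ J.length ∧
      ∀ r, lawR J r ≠ 0 → r ∈ S := by
  classical
  induction J with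
  | nil =>
    refine ⟨{0}, by simp, fun r hr => ?_⟩
    unfold lawR at hr
    by_contra h
    rw [if_neg (by simpa using h)] at hr
    exact hr rfl
  | cons k J ih =>
    obtain ⟨S, hS, hS2⟩ := ih fun k' hk' => hJ k' (List.mem_cons_of_mem _ hk')
    refine ⟨((univ.filter fun r => k.P r ≠ 0) ×ˢ S).image (fun x => x.1 + x.2), ?_, ?_⟩
    · have h1 : ((((univ.filter fun r => k.P r ≠ 0) ×ˢ S).image
          (fun x => x.1 + x.2)).card : ℝ) ≤
          ((univ.filter fun r => k.P r ≠ 0).card : ℝ) * S.card := by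
        have := card_image_le (s := (univ.filter fun r => k.P r ≠ 0) ×ˢ S)
          (f := fun x => x.1 + x.2)
        rw [card_product] at this
        exact_mod_cast this
      refine h1.trans ?_
      rw [List.length_cons, pow_succ']
      exact mul_le_mul (hJ k List.mem_cons_self) hS (by positivity) hX
    · intro r hr
      unfold lawR at hr
      obtain ⟨s, -, hs⟩ := exists_ne_zero_of_sum_ne_zero hr
      refine mem_image.mpr ⟨(s, r - s), mem_product.mpr ⟨mem_filter.mpr ⟨mem_univ _, ?_⟩, ?_⟩, by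
        simp⟩
      · exact left_ne_zero_of_mul hs
      · exact hS2 _ (right_ne_zero_of_mul hs)

lemma H_le_log_supp {Ω α : Type*} [Fintype Ω] {μ : Ω → ℝ} (hμ : IsProb μ) (X : Ω → α)
    (S : Finset Ω) (hS : ∀ ω, μ ω ≠ 0 → ω ∈ S) : H μ X ≤ log S.card := by
  classical
  have h1 : H μ X ≤ H μ (fun ω => ω) := H_mono hμ fun ω ω' e => congrArg X e
  refine h1.trans ?_
  have h2 := log_sum S μ (fun _ => 1) (fun ω _ => hμ.nonneg ω) (fun _ _ => zero_le_one)
    (fun _ _ _ => one_pos)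
  have h3 : ∑ ω ∈ S, μ ω = 1 := by
    rw [← hμ.sum]
    exact sum_subset (subset_univ S) fun ω _ h => by
      by_contra h'; exact h (hS ω h')
  rw [h3, one_mul, div_one, sum_const, nsmul_eq_mul, mul_one] at h2
  refine le_trans (le_of_eq ?_) h2
  unfold H
  rw [← sum_subset (subset_univ S) (f := fun ω => μ ω * -log (Pr μ (fun ω => ω) ω))]
  · refine sum_congr rfl fun ω _ => ?_
    have h4 : Pr μ (fun ω => ω) ω = μ ω := by
      unfold Pr; rw [sum_ite_eq']; simp
    rw [h4, one_div, log_inv]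
  · intro ω _ h
    have : μ ω = 0 := by by_contra h'; exact h (hS ω h')
    rw [this, zero_mul]

lemma F_le {J : List (Un n b)} {X : ℝ} (hX : 1 ≤ X) (hJP : ∀ k ∈ J, IsProb k.P)
    (hJ : ∀ k ∈ J, ((univ.filter fun r => k.P r ≠ 0).card : ℝ) ≤ X) (j : ℕ) :
    F J j ≤ J.length * log X := by
  obtain ⟨S, hS, hS2⟩ := lawR_supp J (by linarith) hJ
  have hμ := lawR_isProb J hJP
  have h1 := H_le_log_supp hμ (rd n b j) S hS2
  have hne : 0 < S.card := by
    rw [card_pos]
    obtain ⟨r, -, hr⟩ := exists_ne_zero_of_sum_ne_zero (by rw [hμ.sum]; exact one_ne_zero)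
    exact ⟨r, hS2 r hr⟩
  unfold F
  refine h1.trans ?_
  rw [← log_pow]
  exact log_le_log (by exact_mod_cast hne) hS

lemma Ok_mono {k : Un n b} {ε D : ℝ} {Y Z : Finset ℕ} (h : k.Ok ε D Y) (hZ : Z ⊆ Y) :
    k.Ok ε D Z :=
  ⟨h.P1, h.ρ1, h.supp, h.coh, fun lam h1 h2 => h.info lam h1 fun y hy => by
    obtain ⟨i, hi, hi2⟩ := h2 y hy
    exact ⟨i, hZ hi, hi2⟩⟩

end ent

/-! ### masses and relative entropies -/

section mass
variable {n : ℕ} {p : ℕ → ℝ}

lemma sum_cut {S Y : Finset ℕ} (h : Y ⊆ S) : ∑ i ∈ S, cut p Y i = ∑ i ∈ Y, p i := by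
  unfold cut
  rw [← sum_filter]
  refine sum_congr ?_ fun _ _ => rfl
  ext i
  simp only [mem_filter, and_iff_right_iff_imp]
  exact fun hi => h hi

lemma ms_cut {j a : ℕ} {Y : Finset ℕ} (h : Y ⊆ nd n j a) :
    ms n j a (cut p Y) = (∑ i ∈ Y, p i) / 2 ^ n := by
  unfold ms; rw [sum_cut h]

lemma dn_cut {j a : ℕ} {Y : Finset ℕ} (h : Y ⊆ nd n j a) :
    av n j a (cut p Y) = (∑ i ∈ Y, p i) / 2 ^ (n - j) := by
  unfold av; rw [sum_cut h]

lemma ms_KL (hp : ∀ i, 0 ≤ p i) {j a : ℕ} {Y : Finset ℕ} (h : Y ⊆ nd n j a) :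
    ms n j a (cut p Y) * KL n j a (cut p Y) = KK (2 ^ (n - j)) p Y / 2 ^ n := by
  rw [ms_cut h]
  unfold KL KK
  rw [sum_cut h]
  set m := ∑ i ∈ Y, p i with hm
  have h1 : ∑ i ∈ nd n j a, cut p Y i / m * log (cut p Y i * 2 ^ (n - j) / m) =
      ∑ i ∈ Y, p i / m * log (p i * 2 ^ (n - j) / m) := by
    symm
    rw [← sum_subset h (f := fun i => cut p Y i / m * log (cut p Y i * 2 ^ (n - j) / m))]
    · refine sum_congr rfl fun i hi => ?_
      simp only [cut, if_pos hi]
    · intro i _ hi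
      simp only [cut, if_neg hi, zero_div, zero_mul]
  rw [h1]
  rcases (sum_nonneg fun i (_ : i ∈ Y) => hp i).eq_or_lt with h0 | h0
  · have hz := (sum_eq_zero_iff_of_nonneg fun i _ => hp i).mp h0.symm
    rw [hm, ← h0, zero_div, zero_mul, sum_eq_zero, zero_div]
    intro i hi; rw [hz i hi, zero_mul]
  · have hm0 : m ≠ 0 := h0.ne'
    rw [div_mul_eq_mul_div, mul_sum]
    congr 1
    refine sum_congr rfl fun i _ => ?_
    rw [← mul_assoc, mul_div_cancel₀ _ hm0]

end mass

/-! ### the inequality -/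

section main
variable {n b : ℕ} {β : Type}

/-- the exit inequality with explicit errors -/
theorem exit_X {p : ℕ → ℝ} (hp : ∀ i, 0 ≤ p i) {J : List (Un n b)} {ε D : ℝ} {j a : ℕ}
    {W : Finset ℕ} (hj : j ≤ n) (ha : a < 2 ^ j) (hW : W ⊆ nd n j a) (hm : 0 < ∑ i ∈ W, p i)
    (hJ : ∀ k ∈ J, k.Ok ε D W) (e : Ep β) (hok : e.Ok n j a W) {err : ℝ} {M : ℕ}
    (hM : F J j ≤ M)
    (hT5 : ∀ Z ⊆ W, 0 < ∑ i ∈ Z, p i → ∀ t, j + t ≤ n →
      (∑ i ∈ Z, p i) * (F J j - F J (j + t) - err) ≤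
      ∑ y ∈ Z, ∑ l, lab J p y l * Real.log (2 ^ t *
        ((∑ y' ∈ Z.filter (fun y' => anc n (j + t) y' = anc n (j + t) y), lab J p y' l) /
          ∑ y' ∈ Z, lab J p y' l))) :
    e.exsum n (fun j' a' _ Y _ => ms n j' a' (cut p Y) * (KL n j' a' (cut p Y) - F J j')) j a W ≤
      ms n j a (cut p W) * (KL n j a (cut p W) - F J j +
        (J.length * (ε * D) + log (M + 1) + err + 1)) +
      e.exsum n (fun j' a' Z Y k => if k.isSome then ms n j' a' (cut p Y) *
        (log (av n j' a' (cut p Z) / av n j' a' (cut p Y)) + 1) else 0) j a W := by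
  have hρ : ∀ k ∈ J, IsProb k.ρ := fun k hk => (hJ k hk).ρ1
  have hP : ∀ k ∈ J, IsProb k.P := fun k hk => (hJ k hk).P1
  have hlR := lawR_isProb J hP
  have hlab := lab_nonneg (n := n) (b := b) hρ hp
  have hmm : ∀ Z : Finset ℕ, mm (lab J p) Z = ∑ i ∈ Z, p i := mm_lab hρ
  -- the four ingredients
  have h1 := exit_Phi (p := lab J p) hlab e hok hW hj
  have h2 := Dst_eq (p := lab J p) e hok hW hj
  have h3 := exit_F (p := lab J p) hlab (by rw [hmm]; exact hm) hW (e.le_lev n j a)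
    (e.lev_le n hok hj) (F := F J) (fun s t _ h => F_antitone hlR h) (M := M)
    (by have := H_nonneg hlR (rd n b n); unfold F at hM ⊢; linarith) (err := err)
    (fun Z hZ hZ0 t ht => by rw [hmm] at hZ0 ⊢; exact hT5 Z hZ hZ0 t ht)
  have h4 := Phi_lab_le (J := J) (p := p) hp (W := W) (V := 2 ^ (n - j)) (by positivity) hJ
  have h5 := exsum_leaf (n := n) (fun j' y => p y * (F J j - F J j')) e hok hW hj
  simp only [lab_sum hρ] at h3
  -- the left side
  have h6 : e.exsum n (fun j' a' _ Y _ => ms n j' a' (cut p Y) * (KL n j' a' (cut p Y) - F J j'))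
      j a W ≤ e.exsum n (fun j' _ _ Y _ => (2 ^ n : ℝ)⁻¹ * (Phi (2 ^ (n - j')) (lab J p) Y +
        (∑ y ∈ Y, p y * (F J j - F J j') - (∑ y ∈ Y, p y) * F J j))) j a W := by
    refine exsum_mono e hok hW hj ha fun j' a' Z Y k h7 _ h8 _ h9 => ?_
    rw [mul_sub, ms_KL hp (h9.trans h8), ms_cut (h9.trans h8), ← sum_mul]
    have h10 := KK_le_Phi (V := 2 ^ (n - j')) (by positivity) hlab Y
    simp only [lab_sum hρ] at h10
    have h11 : KK (2 ^ (n - j')) p Y / 2 ^ n - (∑ i ∈ Y, p i) / 2 ^ n * F J j' =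
        (2 ^ n : ℝ)⁻¹ * (KK (2 ^ (n - j')) p Y + ((∑ y ∈ Y, p y) * (F J j - F J j') -
          (∑ y ∈ Y, p y) * F J j)) := by ring
    rw [h11]
    refine mul_le_mul_of_nonneg_left ?_ (by positivity)
    have h10' : KK (2 ^ (n - j')) p Y ≤ Phi (2 ^ (n - j')) (lab J p) Y := h10
    linarith
  refine h6.trans ?_
  rw [exsum_mul, exsum_add]
  have h12 : e.exsum n (fun j' _ _ Y _ => (∑ y ∈ Y, p y * (F J j - F J j') -
      (∑ y ∈ Y, p y) * F J j)) j a W = e.exsum n (fun j' _ _ Y _ =>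
        ∑ y ∈ Y, (fun j' y => p y * (F J j - F J j') - p y * F J j) j' y) j a W := by
    congr 1
    funext j' _ _ Y _
    rw [sum_sub_distrib, sum_mul]
  rw [h12, exsum_leaf (n := n) (fun j' y => p y * (F J j - F J j') - p y * F J j) e hok hW hj,
    sum_sub_distrib, ← sum_mul]
  -- the cut costs
  have h13 : (2 ^ n : ℝ)⁻¹ * e.exsum n (cutcost (lab J p)) j a W ≤
      e.exsum n (fun j' a' Z Y k => if k.isSome then ms n j' a' (cut p Y) *
        (log (av n j' a' (cut p Z) / av n j' a' (cut p Y)) + 1) else 0) j a W := by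
    rw [← exsum_mul]
    refine exsum_mono e hok hW hj ha fun j' a' Z Y k h7 _ h8 _ h9 => le_of_eq ?_
    unfold cutcost
    cases k with
    | none => simp
    | some k =>
      simp only [Option.isSome_some, if_true]
      rw [hmm, hmm, ms_cut (h9.trans h8), dn_cut h8, dn_cut (h9.trans h8),
        div_div_div_cancel_right₀ (by positivity)]
      ring
  rw [ms_cut hW]
  have h14 : (∑ i ∈ W, p i) / 2 ^ n * (KL n j a (cut p W) - F J j +
      (J.length * (ε * D) + log (M + 1) + err + 1)) = (2 ^ n : ℝ)⁻¹ *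
      (KK (2 ^ (n - j)) p W + (∑ i ∈ W, p i) * (- F J j +
      (J.length * (ε * D) + log (M + 1) + err + 1))) := by
    have h15 := ms_KL hp hW
    rw [ms_cut hW] at h15
    have h16 : (∑ i ∈ W, p i) / 2 ^ n * (KL n j a (cut p W) - F J j +
      (J.length * (ε * D) + log (M + 1) + err + 1)) =
      (∑ i ∈ W, p i) / 2 ^ n * KL n j a (cut p W) + (∑ i ∈ W, p i) / 2 ^ n *
      (- F J j + (J.length * (ε * D) + log (M + 1) + err + 1)) := by ring
    rw [h16, h15]; ring
  rw [h14]
  rw [hmm W, ← h2] at h3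
  have h17 : e.exsum n (fun j' _ _ Y _ => Phi (2 ^ (n - j')) (lab J p) Y) j a W +
      (∑ y ∈ W, p y * (F J j - F J (e.lev n j a y)) - (∑ y ∈ W, p y) * F J j) ≤
      KK (2 ^ (n - j)) p W + (∑ i ∈ W, p i) * (- F J j +
      (J.length * (ε * D) + log (M + 1) + err + 1)) + e.exsum n (cutcost (lab J p)) j a W := by
    nlinarith
  have h18 := mul_le_mul_of_nonneg_left h17 (show (0 : ℝ) ≤ (2 ^ n : ℝ)⁻¹ by positivity)
  linarith

end main

open Filter in
/-- **(X)** from T5 (b) -/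
theorem p_X (hT : T5B) : H17.P_X := by
  intro c c' hc hc' s0 A C1 hs0 hA hC1
  obtain ⟨D1, hD1⟩ := hT c hc
  have hev : ∀ᶠ D : ℝ in atTop, D1 ≤ D ∧ 1 ≤ D ∧ 1 ≤ Real.log D ∧ (4 : ℝ) ≤ (ll D : ℝ) ∧
      1 * ep c D ≤ ((ll D : ℝ) ^ 7)⁻¹ ∧
      200 * ((ll D : ℝ) ^ 3 * Real.log D ^ 1) ≤ D ^ (1 : ℝ) := by
    filter_upwards [eventually_ge_atTop D1, eventually_ge_atTop 1,
      Real.tendsto_log_atTop.eventually_ge_atTop 1,
      H284.lD_tendsto.eventually_ge_atTop 4, H284.ev_ep 7 1 c hc,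
      H284.ev_l_log_pow 3 1 200 1 one_pos] with D h1 h2 h3 h4 h5 h6
    exact ⟨h1, h2, h3, h4, h5, h6⟩
  obtain ⟨D0, hD0⟩ := eventually_atTop.mp hev
  refine ⟨D0, ?_⟩
  intro D n ι _ d J j0 a0 Y E hD hj ha hY hm hlen hok hplan
  obtain ⟨g1, g2, g3, g4, g5, g6⟩ := hD0 D hD
  rw [one_mul] at g5
  rw [pow_one, rpow_one] at g6
  set l : ℝ := (ll D : ℝ) with hl
  have hl0 : 0 < l := by linarith
  have hfit : (conv E).Ok n j0 a0 Y := fits_ok (fun j a W h => Or.inl (by omega)) E hplan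
  have hlen' : (J.length : ℝ) ≤ l ^ 4 := by
    have h : J.length ≤ ll D ^ 4 := hlen
    have h' : (J.length : ℝ) ≤ ((ll D ^ 4 : ℕ) : ℝ) := by exact_mod_cast h
    rw [Nat.cast_pow] at h'
    exact h'
  -- the bound of the entropy
  have hF : F J j0 ≤ ⌈16 * D * l ^ 4⌉₊ := by
    have h1 := F_le (J := J) (X := Real.exp (16 * D)) (one_le_exp (by linarith))
      (fun k hk => (hok k hk).P1) (fun k hk => (hok k hk).supp) j0
    rw [Real.log_exp] at h1
    refine h1.trans (le_trans ?_ (Nat.le_ceil _))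
    have : (J.length : ℝ) * (16 * D) ≤ l ^ 4 * (16 * D) :=
      mul_le_mul_of_nonneg_right hlen' (by linarith)
    linarith
  have key := exit_X (p := d.p) d.p_nonneg (J := J) (ε := ep c D) (D := D) hj ha hY hm hok
    (conv E) hfit (err := D / l ^ 10) hF (fun Z hZ hZ0 t ht =>
      hD1 D n d.p J j0 a0 t Z g1 ht ha (hZ.trans hY) d.p_nonneg hZ0 hlen
        (fun k hk => Ok_mono (hok k hk) hZ))
  rw [exits_sum, exits_sum]
  refine key.trans (add_le_add_left ?_ _)
  refine mul_le_mul_of_nonneg_left ?_ ?_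
  · -- the errors
    have hep0 : 0 ≤ ep c D := by
      unfold ep; exact rpow_nonneg (by linarith) _
    have hE1 : (J.length : ℝ) * (ep c D * D) ≤ D / (4 * l ^ 2) := by
      have h1 : (J.length : ℝ) * (ep c D * D) ≤ l ^ 4 * ((l ^ 7)⁻¹ * D) := by
        refine mul_le_mul hlen' (mul_le_mul_of_nonneg_right g5 (by linarith)) (by positivity)
          (by positivity)
      refine h1.trans ?_
      have h2 : l ^ 4 * ((l ^ 7)⁻¹ * D) = D / (l * l ^ 2) := by field_simp
      rw [h2]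
      refine div_le_div_of_nonneg_left (by linarith) (by positivity) ?_
      exact mul_le_mul_of_nonneg_right g4 (by positivity)
    have hE2 : Real.log ((⌈16 * D * l ^ 4⌉₊ : ℝ) + 1) ≤ D / (4 * l ^ 2) := by
      have h1 : (⌈16 * D * l ^ 4⌉₊ : ℝ) + 1 ≤ 18 * D * l ^ 4 := by
        have h2 := Nat.ceil_lt_add_one (show 0 ≤ 16 * D * l ^ 4 by positivity)
        have h3 : 1 ≤ D * l ^ 4 := by
          have : 1 ≤ l ^ 4 := one_le_pow₀ (by linarith)
          nlinarith
        linarith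
      have h2 : Real.log ((⌈16 * D * l ^ 4⌉₊ : ℝ) + 1) ≤ Real.log (18 * D * l ^ 4) :=
        Real.log_le_log (by positivity) h1
      have h3 : Real.log (18 * D * l ^ 4) = Real.log 18 + Real.log D + 4 * Real.log l := by
        rw [Real.log_mul (by positivity) (by positivity), Real.log_mul (by norm_num) (by positivity),
          Real.log_pow]
        norm_num
      have h4 : Real.log 18 ≤ 17 := by
        have := Real.log_le_sub_one_of_pos (show (0 : ℝ) < 18 by norm_num)
        linarith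
      have h5 : Real.log l ≤ l := by
        have := Real.log_le_sub_one_of_pos hl0
        linarith
      have h6 : Real.log 18 + Real.log D + 4 * Real.log l ≤ 22 * (l * Real.log D) := by
        have h7 : l ≤ l * Real.log D := le_mul_of_one_le_right hl0.le g3
        have h8 : Real.log D ≤ l * Real.log D := le_mul_of_one_le_left (by linarith) (by linarith)
        linarith
      rw [le_div_iff₀ (by positivity)]
      have h9 : Real.log ((⌈16 * D * l ^ 4⌉₊ : ℝ) + 1) ≤ 22 * (l * Real.log D) := by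
        rw [h3] at h2; linarith
      have h10 : Real.log ((⌈16 * D * l ^ 4⌉₊ : ℝ) + 1) * (4 * l ^ 2) ≤
          22 * (l * Real.log D) * (4 * l ^ 2) := mul_le_mul_of_nonneg_right h9 (by positivity)
      have h11 : 22 * (l * Real.log D) * (4 * l ^ 2) = 88 * (l ^ 3 * Real.log D) := by ring
      have h12 : 0 ≤ l ^ 3 * Real.log D := by positivity
      linarith
    have hE3 : D / l ^ 10 ≤ D / (4 * l ^ 2) := by
      refine div_le_div_of_nonneg_left (by linarith) (by positivity) ?_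
      have h1 : l ^ 10 = l ^ 8 * l ^ 2 := by ring
      rw [h1]
      refine mul_le_mul_of_nonneg_right ?_ (by positivity)
      have h2 : (4 : ℝ) ^ 8 ≤ l ^ 8 := pow_le_pow_left₀ (by norm_num) g4 8
      linarith [show (4 : ℝ) ≤ 4 ^ 8 by norm_num]
    have hE4 : (1 : ℝ) ≤ D / (4 * l ^ 2) := by
      rw [le_div_iff₀ (by positivity)]
      have h1 : l ^ 2 ≤ l ^ 3 * Real.log D := by
        have h2 : l ^ 2 ≤ l ^ 3 := pow_le_pow_right₀ (by linarith) (by norm_num)
        exact h2.trans (le_mul_of_one_le_right (by positivity) g3)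
      have h12 : 0 ≤ l ^ 3 * Real.log D := by positivity
      linarith
    have hsum : D / (4 * l ^ 2) + D / (4 * l ^ 2) + D / (4 * l ^ 2) + D / (4 * l ^ 2) =
        D / l ^ 2 := by field_simp; ring
    linarith
  · rw [ms_cut hY]; positivity

end Vale.Agent.P091.T.H957
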